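import Crest.Agent.R165.A.SB

/-! # R165/A: the Boltzmann weight in contour variables (owner helper66) -/

set_option autoImplicit false
noncomputable section
open Classical Crest.ProbabilityR.IsingModel

namespace Crest.Agent.R165.BA

/-- nearest-neighbour part. First sum: the edges of `E` with `edgeB0 e ∈ T` (`(z, j) ↦ bondEdge z j`); second sum: those with
`edgeB0 e ∉ T` (`(z, j) ↦ bondEdge (z - unitVec j) j`); `exists_bondEdge`, `bondEdge_inj`. -/
theorem pairs_eq (T : Finset Site) (b : BoundaryCondition) (E : Finset Edge)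
    (hE : ∀ e, e ∈ E ↔ if b = .free then e ∈ eIn ↑T else e ∈ ePlus ↑T) (s : Site → Bool) :
    ((∑ z ∈ T, ∑ j : Fin 2,
          if b = BoundaryCondition.free ∧ z + unitVec j ∉ T then 0
          else spinSign (s z) * spinSign (s (z + unitVec j))) +
        ∑ z ∈ T, ∑ j : Fin 2,
          if b ≠ BoundaryCondition.free ∧ z - unitVec j ∉ T then
            spinSign (s (z - unitVec j)) * spinSign (s z)
          else 0) = ∑ e ∈ E, spinSign (s (edgeB0 e)) * spinSign (s (edgeB1 e)) := by
  rw [← Finset.sum_filter_add_sum_filter_not E (fun e => edgeB0 e ∈ T), ← Finset.sum_product', ← Finset.sum_product']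
  congr 1
  · simp only [← ite_not (b = BoundaryCondition.free ∧ _), ← Finset.sum_filter]
    refine Finset.sum_bij (fun p _ => bondEdge p.1 p.2) (fun p hp => ?_) (fun p _ q _ h => Prod.ext (bondEdge_inj h).1
      (bondEdge_inj h).2) (fun e he => ?_) fun p _ => by rw [edgeB0_bondEdge, edgeB1_bondEdge]
    · simp only [Finset.mem_filter, Finset.mem_product, Finset.mem_univ, and_true, hE, eIn, ePlus, Set.mem_ofPred_eq,
        edgeB0_bondEdge, edgeB1_bondEdge, Finset.mem_coe] at hp ⊢
      split_ifs <;> tauto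
    · obtain ⟨j, hj⟩ := exists_bondEdge e
      refine ⟨(edgeB0 e, j), ?_, hj⟩
      have h1 := edgeB1_bondEdge (edgeB0 e) j
      rw [hj] at h1
      simp only [Finset.mem_filter, Finset.mem_product, Finset.mem_univ, and_true, hE, eIn, ePlus, Set.mem_ofPred_eq,
        Finset.mem_coe, ← h1] at he ⊢
      split_ifs at he <;> tauto
  · rw [← Finset.sum_filter]
    refine Finset.sum_bij (fun p _ => bondEdge (p.1 - unitVec p.2) p.2) (fun p hp => ?_) (fun p _ q _ h => ?_)
      (fun e he => ?_) fun p _ => by rw [edgeB0_bondEdge, edgeB1_bondEdge, sub_add_cancel]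
    · simp only [Finset.mem_filter, Finset.mem_product, Finset.mem_univ, and_true, hE, eIn, ePlus, Set.mem_ofPred_eq,
        edgeB0_bondEdge, edgeB1_bondEdge, Finset.mem_coe, sub_add_cancel] at hp ⊢
      split_ifs <;> tauto
    · obtain ⟨h1, h2⟩ := bondEdge_inj h
      rw [h2, sub_left_inj] at h1
      exact Prod.ext h1 h2
    · obtain ⟨j, hj⟩ := exists_bondEdge e
      have h1 := edgeB1_bondEdge (edgeB0 e) j
      rw [hj] at h1
      have h2 : edgeB1 e - unitVec j = edgeB0 e := by rw [h1, add_sub_cancel_right]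
      refine ⟨(edgeB1 e, j), ?_, by rw [h2, hj]⟩
      simp only [Finset.mem_filter, Finset.mem_product, Finset.mem_univ, and_true, hE, eIn, ePlus, Set.mem_ofPred_eq,
        Finset.mem_coe, h2] at he ⊢
      split_ifs at he <;> tauto

private theorem enb_bij {R : ℕ} {V : Finset Site → ℝ} (hV : PotOK R V) {T : Finset Site} (b : BoundaryCondition)
    {z : Site} (hz : z ∈ T) (g : Finset Site → ℝ) (hg : ∀ B, g B ≠ 0 → V B ≠ 0 ∧ (b = .free → B ⊆ T)) :
    ∑ A ∈ anchoredShapes R, g (A.image (· + z)) = ∑ B ∈ (shapes T b R).filter (z ∈ ·), g B := by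
  refine Finset.sum_bij_ne_zero (fun A _ _ => A.image (· + z)) (fun A hA h => ?_)
    (fun A _ _ A' _ _ e => Finset.image_injective (add_left_injective z) e) (fun B hB h => ?_) fun _ _ _ => rfl
  · have h0 : z ∈ A.image (· + z) := Finset.mem_image.2 ⟨_, (Finset.mem_filter.1 hA).2, zero_add z⟩
    have h1 := hV.range _ (hg _ h).1
    refine Finset.mem_filter.2 ⟨Finset.mem_filter.2 ⟨Finset.mem_powerset.2 fun y hy =>
      Finset.mem_biUnion.2 ⟨z, hz, ?_⟩, ⟨⟨z, h0⟩, fun x hx y hy => ?_⟩, ?_⟩, h0⟩
    · have := h1 y hy z h0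
      simp only [abs_le, box, Finset.mem_product, Finset.mem_Icc] at this ⊢
      omega
    · have := h1 x hx y hy
      simp only [abs_le, supd] at this ⊢
      omega
    · split_ifs with hb
      exacts [(hg _ h).2 hb, ⟨z, Finset.mem_inter.2 ⟨h0, hz⟩⟩]
  · obtain ⟨h1, h2⟩ := Finset.mem_filter.1 hB
    have e : (B.image (· - z)).image (· + z) = B := by simp [Finset.image_image, Function.comp_def]
    refine ⟨B.image (· - z), Finset.mem_filter.2 ⟨Finset.mem_powerset.2 fun y hy => ?_,
      Finset.mem_image.2 ⟨z, h2, sub_self z⟩⟩, by rwa [e], e⟩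
    obtain ⟨x, hx, rfl⟩ := Finset.mem_image.1 hy
    have := (Finset.mem_filter.1 h1).2.1.2 x hx z h2
    simp only [supd, Finset.mem_product, Finset.mem_Icc, Prod.fst_sub, Prod.snd_sub] at this ⊢
    omega

/-- perturbation. Write the right side as `∑_{B} ∑_{z ∈ B ∩ T} V B / |B ∩ T| * ∏` (`B ∩ T` is non-empty), swap the sums, and for fixed `z ∈ T`
use the bijection `A ↦ A.image (· + z)` between the terms with `V ≠ 0` (`Finset.sum_bij_ne_zero` or filter first; `hV.trans`, `hV.range`). -/
theorem shapes_eq {R : ℕ} {V : Finset Site → ℝ} (hV : PotOK R V) (T : Finset Site) (b : BoundaryCondition)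
    (s : Site → Bool) :
    (∑ z ∈ T, ∑ A ∈ anchoredShapes R,
      if b = BoundaryCondition.free then
        (if ∀ x ∈ A, z + x ∈ T then V A / A.card * ∏ x ∈ A, spinSign (s (z + x)) else 0)
      else V A / (A.filter fun x => z + x ∈ T).card * ∏ x ∈ A, spinSign (s (z + x))) =
      ∑ B ∈ shapes T b R, V B * ∏ z ∈ B, spinSign (s z) := by
  let g : Finset Site → ℝ := fun B =>
    if b = .free → B ⊆ T then V B / (B ∩ T).card * ∏ y ∈ B, spinSign (s y) else 0
  have hg : ∀ B, g B ≠ 0 → V B ≠ 0 ∧ (b = .free → B ⊆ T) := fun B h =>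
    ⟨fun e => h (by simp [g, e]), by_contra fun e => h (if_neg e)⟩
  trans ∑ z ∈ T, ∑ B ∈ (shapes T b R).filter (z ∈ ·), g B
  · refine Finset.sum_congr rfl fun z hz => (Finset.sum_congr rfl fun A _ => ?_).trans (enb_bij hV b hz g hg)
    have e1 : (A.image (· + z) ∩ T).card = (A.filter fun x => z + x ∈ T).card := by
      rw [← Finset.filter_mem_eq_inter, Finset.filter_image, Finset.card_image_of_injective _ (add_left_injective z)]
      simp only [add_comm]
    have e2 : A.image (· + z) ⊆ T ↔ ∀ x ∈ A, z + x ∈ T := by simp only [Finset.image_subset_iff, add_comm]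
    have e3 : ∏ y ∈ A.image (· + z), spinSign (s y) = ∏ x ∈ A, spinSign (s (z + x)) := by
      rw [Finset.prod_image (add_left_injective z).injOn]
      simp only [add_comm]
    simp only [g, e1, e2, e3, hV.trans]
    by_cases hb : b = .free
    · simp only [hb, if_true, forall_true_left]
      split_ifs with h
      · rw [Finset.filter_true_of_mem h]
      · rfl
    · simp [hb]
  · simp only [Finset.sum_filter]
    rw [Finset.sum_comm]
    refine Finset.sum_congr rfl fun B hB => ?_
    obtain ⟨-, h1, h2⟩ := Finset.mem_filter.1 hB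
    have h3 : (B ∩ T).Nonempty := by
      split_ifs at h2
      · exact (Finset.inter_eq_left.2 h2).symm ▸ h1.1
      · exact h2
    have h4 : ((B ∩ T).card : ℝ) ≠ 0 := Nat.cast_ne_zero.2 h3.card_pos.ne'
    rw [← Finset.sum_filter, Finset.sum_const, Finset.filter_mem_eq_inter, Finset.inter_comm, nsmul_eq_mul]
    simp only [g]
    rw [if_pos fun hb => by rwa [if_pos hb] at h2]
    field_simp

/-- `pairs_eq`, `shapes_eq` (use `convert`: the `Decidable` instances may differ), `spinSign_mul`, `sB_nOf` (if `V B = 0` the factor is `1`), `Real.exp_sum` -/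
theorem boltz_eq {R : ℕ} {V : Finset Site → ℝ} (hV : PotOK R V) (T : Finset Site) (b : BoundaryCondition) (E : Finset Edge)
    (hE : ∀ e, e ∈ E ↔ if b = .free then e ∈ eIn ↑T else e ∈ ePlus ↑T) (J lam β : ℝ) (s : Site → Bool) :
    Real.exp (-β * domainEnergy T b J lam R V s) =
      Real.exp (β * J * E.card) * (∏ e ∈ E, if nOf s e = true then Real.exp (-2 * β * J) else 1) *
        pertF (shapes T b R) (β * lam) V (nOf s) := by
  have h1 : domainEnergy T b J lam R V s = -J * ∑ e ∈ E, spinSign (s (edgeB0 e)) * spinSign (s (edgeB1 e)) -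
      lam * ∑ B ∈ shapes T b R, V B * ∏ z ∈ B, spinSign (s z) := by
    rw [← pairs_eq T b E hE s, ← shapes_eq hV T b s, domainEnergy]
  have h2 : (∏ e ∈ E, if nOf s e = true then Real.exp (-2 * β * J) else 1) =
      Real.exp (∑ e ∈ E, β * J * (spinSign (s (edgeB0 e)) * spinSign (s (edgeB1 e)) - 1)) := by
    rw [Real.exp_sum]
    refine Finset.prod_congr rfl fun e _ => ?_
    rw [spinSign_mul, nOf]
    split_ifs
    · congr 1
      ring
    · simp
  have h3 : pertF (shapes T b R) (β * lam) V (nOf s) =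
      Real.exp (∑ B ∈ shapes T b R, β * lam * (V B * ∏ z ∈ B, spinSign (s z))) := by
    rw [Real.exp_sum]
    refine Finset.prod_congr rfl fun B _ => ?_
    by_cases h : V B = 0
    · simp [h]
    · rw [sB_nOf (hV.even B h), mul_assoc]
  rw [h1, h2, h3, ← Real.exp_add, ← Real.exp_add, ← Finset.mul_sum, ← Finset.mul_sum, Finset.sum_sub_distrib]
  congr 1
  simp only [Finset.sum_const, nsmul_eq_mul, mul_one]
  ring

end Crest.Agent.R165.BA
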