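import Crest.Agent.R165.A.Energy
import Crest.Agent.R165.T.Main

/-! # R165/A: Griffiths inequalities (owner helper66) -/

set_option autoImplicit false
noncomputable section
open Classical Crest.ProbabilityR.IsingModel

namespace Crest.Agent.R165.BA

def sg {T : Type} (A : Finset T) (σ : T → Bool) : ℝ := ∏ v ∈ A, spinSign (σ v)

theorem gk_sq (b : Bool) : spinSign b * spinSign b = 1 := by cases b <;> simp [spinSign]

theorem gk_self {T : Type} (A : Finset T) (σ : T → Bool) : sg A σ * sg A σ = 1 := by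
  simp only [sg, ← Finset.prod_mul_distrib, gk_sq, Finset.prod_const_one]

theorem gk_pm {T : Type} (A : Finset T) (σ : T → Bool) : sg A σ = 1 ∨ sg A σ = -1 :=
  mul_self_eq_one_iff.1 (gk_self A σ)

theorem gk_beq {T : Type} (A : Finset T) (σ τ : T → Bool) : sg A (fun v => σ v == τ v) = sg A σ * sg A τ := by
  simp only [sg, ← Finset.prod_mul_distrib]
  refine Finset.prod_congr rfl fun v _ => ?_
  cases σ v <;> cases τ v <;> simp [spinSign]

theorem sg_mul {T : Type} (A B : Finset T) (σ : T → Bool) : sg A σ * sg B σ = sg (symmDiff A B) σ := by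
  have h1 : sg A σ = sg (A ∩ B) σ * sg (A \ B) σ := (Finset.prod_inter_mul_prod_sdiff A B _).symm
  have h2 : sg B σ = sg (A ∩ B) σ * sg (B \ A) σ := by
    rw [Finset.inter_comm]
    exact (Finset.prod_inter_mul_prod_sdiff B A _).symm
  have h3 : sg (symmDiff A B) σ = sg (A \ B) σ * sg (B \ A) σ := by
    rw [symmDiff_def, Finset.sup_eq_union]
    exact Finset.prod_union disjoint_sdiff_sdiff
  rw [h1, h2, h3, mul_mul_mul_comm, gk_self, one_mul]

/-- GKS I. Induction on `B` generalizing `S`: `exp (K σ_A) = cosh K + sinh K σ_A` as `σ_A = ±1`; `∑_σ sg S σ = ∏_v ∑_b .. ≥ 0`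
(`Finset.prod_univ_sum`/`Fintype.piFinset`, or flip one spin). -/
theorem gks_one {T κ : Type} [Fintype T] (B : Finset κ) (K : κ → ℝ) (hK : ∀ b ∈ B, 0 ≤ K b) (A : κ → Finset T)
    (S : Finset T) : 0 ≤ ∑ σ : T → Bool, sg S σ * Real.exp (∑ b ∈ B, K b * sg (A b) σ) := by
  induction B using Finset.induction_on generalizing S with
  | empty =>
    simp only [Finset.sum_empty, Real.exp_zero, mul_one]
    have h1 : ∀ σ : T → Bool, sg S σ = ∏ v, if v ∈ S then spinSign (σ v) else 1 := fun σ => by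
      rw [Finset.prod_ite_mem, Finset.univ_inter, sg]
    simp only [h1]
    rw [← Fintype.piFinset_univ, ← Finset.prod_univ_sum (fun _ => Finset.univ)
      fun v b => if v ∈ S then spinSign b else 1]
    refine Finset.prod_nonneg fun v _ => ?_
    split_ifs <;> simp [spinSign]
  | insert c B hc ih =>
    have hK' : ∀ b ∈ B, 0 ≤ K b := fun b hb => hK b (Finset.mem_insert_of_mem hb)
    have h1 : ∀ σ : T → Bool, sg S σ * Real.exp (∑ b ∈ insert c B, K b * sg (A b) σ) =
        Real.cosh (K c) * (sg S σ * Real.exp (∑ b ∈ B, K b * sg (A b) σ)) +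
          Real.sinh (K c) * (sg (symmDiff S (A c)) σ * Real.exp (∑ b ∈ B, K b * sg (A b) σ)) := fun σ => by
      have h2 : Real.exp (K c * sg (A c) σ) = Real.cosh (K c) + Real.sinh (K c) * sg (A c) σ := by
        rcases gk_pm (A c) σ with h | h <;> rw [h]
        · rw [mul_one, mul_one, Real.cosh_add_sinh]
        · rw [mul_neg_one, mul_neg_one, ← sub_eq_add_neg, Real.cosh_sub_sinh]
      rw [Finset.sum_insert hc, Real.exp_add, h2, ← sg_mul]
      ring
    simp only [h1, Finset.sum_add_distrib, ← Finset.mul_sum]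
    exact add_nonneg (mul_nonneg (Real.cosh_pos _).le (ih hK' _))
      (mul_nonneg (Real.sinh_nonneg_iff.2 (hK c (Finset.mem_insert_self c B))) (ih hK' _))

/-- GKS II. Duplicate: with `σ' v = (σ v == τ v)` one has `sg A σ' = sg A σ * sg A τ`, and the difference is
`∑_τ (1 - sg S' τ) ∑_σ sg S σ * sg S' σ * exp (∑ K b (1 + sg (A b) τ) sg (A b) σ) ≥ 0` by `gks_one`. -/
theorem gks_two {T κ : Type} [Fintype T] (B : Finset κ) (K : κ → ℝ) (hK : ∀ b ∈ B, 0 ≤ K b) (A : κ → Finset T)
    (S S' : Finset T) :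
    (∑ σ : T → Bool, sg S σ * Real.exp (∑ b ∈ B, K b * sg (A b) σ)) *
        (∑ σ : T → Bool, sg S' σ * Real.exp (∑ b ∈ B, K b * sg (A b) σ)) ≤
      (∑ σ : T → Bool, sg S σ * sg S' σ * Real.exp (∑ b ∈ B, K b * sg (A b) σ)) *
        ∑ σ : T → Bool, Real.exp (∑ b ∈ B, K b * sg (A b) σ) := by
  have hinv : ∀ σ : T → Bool, Function.Involutive fun (τ : T → Bool) v => σ v == τ v := fun σ τ => by
    funext v
    beta_reduce
    cases σ v <;> cases τ v <;> rfl
  have key : ∀ (σ : T → Bool) (F : (T → Bool) → ℝ), ∑ τ, F τ = ∑ τ : T → Bool, F fun v => σ v == τ v := fun σ F =>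
    (Equiv.sum_comp (hinv σ).toPerm F).symm
  rw [← sub_nonneg, Finset.sum_mul_sum, Finset.sum_mul_sum, ← Finset.sum_sub_distrib]
  have h1 : ∀ σ : T → Bool,
      (∑ τ : T → Bool, sg S σ * sg S' σ * Real.exp (∑ b ∈ B, K b * sg (A b) σ) * Real.exp (∑ b ∈ B, K b * sg (A b) τ)) -
        ∑ τ : T → Bool, sg S σ * Real.exp (∑ b ∈ B, K b * sg (A b) σ) *
          (sg S' τ * Real.exp (∑ b ∈ B, K b * sg (A b) τ)) =
      ∑ τ : T → Bool, (1 - sg S' τ) *
        (sg (symmDiff S S') σ * Real.exp (∑ b ∈ B, K b * (1 + sg (A b) τ) * sg (A b) σ)) := fun σ => by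
    rw [← Finset.sum_sub_distrib, key σ]
    refine Finset.sum_congr rfl fun τ _ => ?_
    have h2 : Real.exp (∑ b ∈ B, K b * (1 + sg (A b) τ) * sg (A b) σ) =
        Real.exp (∑ b ∈ B, K b * sg (A b) σ) * Real.exp (∑ b ∈ B, K b * (sg (A b) σ * sg (A b) τ)) := by
      rw [← Real.exp_add, ← Finset.sum_add_distrib]
      congr 1
      exact Finset.sum_congr rfl fun b _ => by ring
    simp only [gk_beq]
    rw [h2, ← sg_mul]
    ring
  simp only [h1]
  rw [Finset.sum_comm]
  refine Finset.sum_nonneg fun τ _ => ?_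
  rw [← Finset.mul_sum]
  refine mul_nonneg ?_ (gks_one B _ (fun b hb => mul_nonneg (hK b hb) ?_) A _)
  · rcases gk_pm S' τ with h | h <;> rw [h] <;> norm_num
  · rcases gk_pm (A b) τ with h | h <;> rw [h] <;> norm_num

/-- the exterior spin is `true` for `b ≠ minus` -/
theorem prod_extend (T : Finset Site) {b : BoundaryCondition} (hb : b ≠ .minus) (σ : T → Bool) (S : Finset Site) :
    ∏ v ∈ S, spinSign (extendConfig T b σ v) = sg (S.subtype (· ∈ T)) σ := by
  rw [sg, ← Finset.prod_filter_mul_prod_filter_not S (· ∈ T), ← Finset.prod_subtype_eq_prod_filter]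
  have h1 : ∏ v ∈ S with ¬ v ∈ T, spinSign (extendConfig T b σ v) = 1 := Finset.prod_eq_one fun v hv => by
    rw [extendConfig, dif_neg (Finset.mem_filter.1 hv).2]
    cases b
    · rfl
    · rfl
    · exact (hb rfl).elim
  rw [h1, mul_one]
  exact Finset.prod_congr rfl fun v _ => by rw [extendConfig, dif_pos v.2]

/-- GKS I and II at `lam = 0`. `pairs_eq` with `E` the finset of `eIn`/`ePlus` (`ePlus_finite`), `K e = β * J`,
`A e = ({edgeB0 e, edgeB1 e} : Finset Site).subtype (· ∈ T)`, `prod_extend`; the partition function is positive. -/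
theorem _root_.Crest.Agent.R165.gks {D : Set ℂ} {a : ℝ} (h : (domainSites D a).Finite) (b : BoundaryCondition) (hb : b ≠ .minus)
    {J β : ℝ} (hJ : 0 ≤ β * J) (R : ℕ) (V : Finset Site → ℝ) (S S' : Finset Site) (hS : b = .free → ↑(S ∪ S') ⊆ domainSites D a) :
    0 ≤ domainExpect D a b J 0 R V β (fun σ => ∏ v ∈ S, spinSign (σ v)) ∧
    domainExpect D a b J 0 R V β (fun σ => ∏ v ∈ S, spinSign (σ v)) *
        domainExpect D a b J 0 R V β (fun σ => ∏ v ∈ S', spinSign (σ v)) ≤
      domainExpect D a b J 0 R V β (fun σ => (∏ v ∈ S, spinSign (σ v)) * ∏ v ∈ S', spinSign (σ v)) := by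
  have hf : {e : Edge | if b = .free then e ∈ eIn ↑h.toFinset else e ∈ ePlus ↑h.toFinset}.Finite := by
    refine (ePlus_finite h.toFinset.finite_toSet).subset fun e he => ?_
    rw [Set.mem_ofPred_eq] at he
    split_ifs at he
    · exact Or.inl he.1
    · exact he
  have hA : ∀ e : Edge, ∃ A : Finset h.toFinset, ∀ σ : h.toFinset → Bool,
      spinSign (extendConfig h.toFinset b σ (edgeB0 e)) * spinSign (extendConfig h.toFinset b σ (edgeB1 e)) = sg A σ :=
    fun e => ⟨_, fun σ => Eq.trans (by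
      rw [← prod_extend h.toFinset hb σ {edgeB0 e}, ← prod_extend h.toFinset hb σ {edgeB1 e},
        Finset.prod_singleton, Finset.prod_singleton])
      (sg_mul (({edgeB0 e} : Finset Site).subtype (· ∈ h.toFinset))
        (({edgeB1 e} : Finset Site).subtype (· ∈ h.toFinset)) σ)⟩
  choose A hA using hA
  have hw : ∀ σ : h.toFinset → Bool,
      Real.exp (-β * domainEnergy h.toFinset b J 0 R V (extendConfig h.toFinset b σ)) =
        Real.exp (∑ e ∈ hf.toFinset, β * J * sg (A e) σ) := fun σ => by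
    rw [domainEnergy, zero_mul, sub_zero, pairs_eq h.toFinset b hf.toFinset (fun e => hf.mem_toFinset),
      ← Finset.mul_sum]
    simp only [hA]
    congr 1
    ring
  simp only [domainExpect, dif_pos h, hw, prod_extend h.toFinset hb]
  have hZ : 0 < ∑ σ : h.toFinset → Bool, Real.exp (∑ e ∈ hf.toFinset, β * J * sg (A e) σ) :=
    Finset.sum_pos (fun σ _ => Real.exp_pos _) Finset.univ_nonempty
  refine ⟨div_nonneg ?_ hZ.le, ?_⟩
  · have := gks_one hf.toFinset (fun _ => β * J) (fun _ _ => hJ) A (S.subtype (· ∈ h.toFinset))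
    convert this
    rfl
  · rw [div_mul_div_comm, div_le_div_iff₀ (mul_pos hZ hZ) hZ, ← mul_assoc]
    refine mul_le_mul_of_nonneg_right ?_ hZ.le
    have := gks_two hf.toFinset (fun _ => β * J) (fun _ _ => hJ) A (S.subtype (· ∈ h.toFinset))
      (S'.subtype (· ∈ h.toFinset))
    convert this
    rfl

end Crest.Agent.R165.BA
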