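import Crest.Agent.R165.Rep

/-! # R165/A: the transform `hat` (owner helper66) -/

set_option autoImplicit false
noncomputable section
open Classical Crest.ProbabilityR.IsingModel

namespace Crest.Agent.R165.BA

section
variable {A : Type} [CommRing A]

theorem ind_insert (e : Edge) (U : Finset Edge) : ind (insert e U) = Function.update (ind U) e true := by
  funext i
  by_cases h : i = e
  · simp [ind, h]
  · simp [ind, h]

theorem hat_empty (x : Edge → A) (F : Cfg → A) : hat x ∅ F = F (ind ∅) := by
  simp [hat]

/-- Recursion. `Finset.sum_powerset_insert` twice (outer sum over `T`, inner sum over `U ⊆ insert e T`), `ind_insert`,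
`card_insert_of_notMem`, `(T.card + 1) - U.card = (T.card - U.card) + 1` for `U ⊆ T`. -/
theorem hat_insert (x : Edge → A) {e : Edge} {E : Finset Edge} (he : e ∉ E) (F : Cfg → A) :
    hat x (insert e E) F = hat x E F + x e * (hat x E (fun n => F (Function.update n e true)) - hat x E F) := by
  unfold hat
  rw [Finset.sum_powerset_insert he, ← Finset.sum_sub_distrib, Finset.mul_sum]
  congr 1
  refine Finset.sum_congr rfl fun T hT => ?_
  have heT : e ∉ T := fun h => he (Finset.mem_powerset.1 hT h)
  rw [Finset.sum_powerset_insert heT, Finset.prod_insert heT, Finset.card_insert_of_notMem heT]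
  have h1 : ∑ U ∈ T.powerset, (-1) ^ (T.card + 1 - U.card) * F (ind U) =
      -∑ U ∈ T.powerset, (-1) ^ (T.card - U.card) * F (ind U) := by
    rw [← Finset.sum_neg_distrib]
    refine Finset.sum_congr rfl fun U hU => ?_
    rw [Nat.succ_sub (Finset.card_le_card (Finset.mem_powerset.1 hU)), pow_succ]
    ring
  have h2 : ∑ U ∈ T.powerset, (-1) ^ (T.card + 1 - (insert e U).card) * F (ind (insert e U)) =
      ∑ U ∈ T.powerset, (-1) ^ (T.card - U.card) * F (Function.update (ind U) e true) := by
    refine Finset.sum_congr rfl fun U hU => ?_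
    rw [Finset.card_insert_of_notMem fun h => heT (Finset.mem_powerset.1 hU h), Nat.add_sub_add_right, ind_insert]
  rw [h1, h2]
  ring

theorem hat_congr_ind (x : Edge → A) (E : Finset Edge) {F G : Cfg → A} (h : ∀ U ⊆ E, F (ind U) = G (ind U)) :
    hat x E F = hat x E G := by
  refine Finset.sum_congr rfl fun T hT => ?_
  congr 1
  refine Finset.sum_congr rfl fun U hU => ?_
  rw [h U ((Finset.mem_powerset.1 hU).trans (Finset.mem_powerset.1 hT))]

theorem hat_congr_x {x y : Edge → A} (E : Finset Edge) (h : ∀ e ∈ E, x e = y e) (F : Cfg → A) :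
    hat x E F = hat y E F := by
  refine Finset.sum_congr rfl fun T hT => ?_
  congr 1
  exact Finset.prod_congr rfl fun e he => h e (Finset.mem_powerset.1 hT he)

/-- edges with `x e = 0` can be dropped (`Finset.sum_subset`: a `T ⊄ E₀` has a vanishing product) -/
theorem hat_drop (x : Edge → A) {E₀ E₁ : Finset Edge} (h : E₀ ⊆ E₁) (hx : ∀ e ∈ E₁, e ∉ E₀ → x e = 0) (F : Cfg → A) :
    hat x E₁ F = hat x E₀ F := by
  refine (Finset.sum_subset (Finset.powerset_mono.2 h) fun T hT hT' => ?_).symm
  obtain ⟨e, he, he'⟩ := Finset.not_subset.1 (mt Finset.mem_powerset.2 hT')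
  rw [Finset.prod_eq_zero he (hx e (Finset.mem_powerset.1 hT he) he'), mul_zero]

end

theorem hat_upd {A : Type} {E₀ : Finset Edge} {F : Cfg → A} (hF : DependsOn F ↑E₀) {e : Edge} (he : e ∉ E₀) :
    (fun n => F (Function.update n e true)) = F :=
  funext fun _ => hF fun i hi => Function.update_of_ne (fun h : i = e => he (h ▸ hi)) _ _

/-- write `E₁ = E₀ ∪ D`, induction on `D` with `hat_insert`; `F (update n e true) = F n` for `e ∉ E₀` -/
theorem _root_.Crest.Agent.R165.hat_congr {A : Type} [CommRing A] (x : Edge → A) {E₀ E₁ : Finset Edge} (h : E₀ ⊆ E₁) {F : Cfg → A}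
    (hF : DependsOn F ↑E₀) : hat x E₁ F = hat x E₀ F := by
  have key : ∀ D : Finset Edge, hat x (E₀ ∪ D) F = hat x E₀ F := by
    intro D
    induction D using Finset.induction_on with
    | empty => rw [Finset.union_empty]
    | insert e D _ ih =>
      rw [Finset.union_insert]
      by_cases he : e ∈ E₀ ∪ D
      · rw [Finset.insert_eq_of_mem he, ih]
      · rw [hat_insert x he, hat_upd hF fun h' => he (Finset.mem_union_left _ h'), sub_self, mul_zero, add_zero, ih]
  rw [← key E₁, Finset.union_eq_right.2 h]

/-- induction on `E₁` generalizing `G` (`hat_insert`; replace `G` by `G ∘ update e false` with `hat_congr_ind`) -/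
theorem _root_.Crest.Agent.R165.hat_mul {A : Type} [CommRing A] (x : Edge → A) {E₀ E₁ : Finset Edge} (h : Disjoint E₀ E₁) {F G : Cfg → A}
    (hF : DependsOn F ↑E₀) (hG : DependsOn G ↑E₁) : hat x (E₀ ∪ E₁) (F * G) = hat x E₀ F * hat x E₁ G := by
  have key : ∀ (E₁ : Finset Edge), Disjoint E₀ E₁ → ∀ G : Cfg → A,
      (∀ n n' : Cfg, (∀ i, i ∉ E₀ → n i = n' i) → G n = G n') →
      hat x (E₀ ∪ E₁) (F * G) = hat x E₀ F * hat x E₁ G := by
    intro E₁
    induction E₁ using Finset.induction_on with
    | empty =>
      intro _ G hG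
      rw [Finset.union_empty, hat_empty]
      unfold hat
      simp only [Finset.sum_mul]
      refine Finset.sum_congr rfl fun T hT => Finset.sum_congr rfl fun U hU => ?_
      rw [Pi.mul_apply, hG (ind U) (ind ∅) fun i hi => by
        have : i ∉ U := fun h => hi (Finset.mem_powerset.1 hT (Finset.mem_powerset.1 hU h))
        simp [ind, this]]
      ring
    | insert e E he ih =>
      intro h G hG
      obtain ⟨h1, h2⟩ := Finset.disjoint_insert_right.1 h
      have h3 : (fun n => (F * G) (Function.update n e true)) = F * fun n => G (Function.update n e true) := by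
        funext n
        rw [Pi.mul_apply, Pi.mul_apply, congrFun (hat_upd hF h1) n]
      rw [Finset.union_insert, hat_insert x (by simp [h1, he]), hat_insert x he, h3, ih h2 G hG,
        ih h2 _ fun n n' hn => hG _ _ fun i hi => by
          by_cases hi' : i = e
          · simp [hi']
          · simp [hi', hn i hi]]
      ring
  exact key E₁ h G fun n n' hn => hG fun i hi => hn i (Finset.disjoint_right.1 h hi)

/-- induction on `E₀` generalizing `F`: `(1 + x)(H + x (H' - H)) = H + x H'`, `Finset.sum_powerset_insert` -/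
theorem _root_.Crest.Agent.R165.prod_mul_hat {A : Type} [CommRing A] (x : Edge → A) (hx : ∀ e, x e * x e = 0) (E₀ : Finset Edge) (F : Cfg → A) :
    (∏ e ∈ E₀, (1 + x e)) * hat x E₀ F = ∑ γ ∈ E₀.powerset, F (ind γ) * ∏ e ∈ γ, x e := by
  induction E₀ using Finset.induction_on generalizing F with
  | empty => simp [hat_empty]
  | insert e E he ih =>
    have h1 : ∑ γ ∈ E.powerset, F (ind (insert e γ)) * ∏ e ∈ insert e γ, x e =
        x e * ∑ γ ∈ E.powerset, F (Function.update (ind γ) e true) * ∏ e ∈ γ, x e := by
      rw [Finset.mul_sum]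
      refine Finset.sum_congr rfl fun γ hγ => ?_
      rw [Finset.prod_insert fun h => he (Finset.mem_powerset.1 hγ h), ind_insert]
      ring
    rw [Finset.prod_insert he, hat_insert x he, Finset.sum_powerset_insert he, h1, ← ih F,
      ← ih fun n => F (Function.update n e true)]
    linear_combination ((∏ e ∈ E, (1 + x e)) * (hat x E (fun n => F (Function.update n e true)) - hat x E F)) * hx e

end Crest.Agent.R165.BA
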