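import Crest.Agent.R165.A.Spin
import Crest.Agent.R165.A.Energy

/-! # R165/A: Ising averages as contour sums (owner helper66) -/

set_option autoImplicit false
noncomputable section
open Classical Crest.ProbabilityR.IsingModel

namespace Crest.Agent.R165.BA

private theorem ising_key {R : ℕ} {V : Finset Site → ℝ} (hV : PotOK R V) (T : Finset Site) (b : BoundaryCondition)
    (E₀ : Finset Edge) (hE : ∀ e, e ∈ E₀ ↔ if b = .free then e ∈ eIn ↑T else e ∈ ePlus ↑T) (J lam β : ℝ)
    (E : Finset Edge) (S : Finset Site) (O : Cfg → ℝ) {w : Edge → ℝ}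
    (hw : ∀ e ∈ E, w e = (if e ∈ E₀ then Real.exp (-2 * β * J) else 1) * eray S e) :
    ∑ γ ∈ E.powerset.filter EvenSub, (∏ v ∈ S, spinSign (spinOf γ v)) * O (nOf (spinOf γ)) *
        Real.exp (-β * domainEnergy T b J lam R V (spinOf γ)) =
      Real.exp (β * J * E₀.card) * Zf E w fun n => pertF (shapes T b R) (β * lam) V n * O n := by
  rw [Zf, Finset.mul_sum]
  refine Finset.sum_congr rfl fun γ hγ => ?_
  obtain ⟨h1, h2⟩ := Finset.mem_filter.1 hγ
  have h3 : (∏ e ∈ E₀, if ind γ e = true then Real.exp (-2 * β * J) else 1) =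
      ∏ e ∈ γ, if e ∈ E₀ then Real.exp (-2 * β * J) else 1 := by
    simp only [ind, decide_eq_true_eq, Finset.prod_ite_mem, Finset.inter_comm]
  rw [boltz_eq hV T b E₀ hE, nOf_spinOf h2, ← prod_eray, h3,
    Finset.prod_congr rfl fun e he => hw e (Finset.mem_powerset.1 h1 he), Finset.prod_mul_distrib]
  ring

private theorem ising_dep (T : Finset Site) (J lam : ℝ) (R : ℕ) (V : Finset Site → ℝ) :
    DependsOn (domainEnergy T .free J lam R V) ↑T := fun s s' hs => by
  unfold domainEnergy
  congr 2
  · congr 1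
    refine Finset.sum_congr rfl fun z hz => Finset.sum_congr rfl fun j _ => ?_
    split_ifs with h1
    · rfl
    · rw [hs z hz, hs _ (by simpa using h1)]
  · refine Finset.sum_congr rfl fun z hz => Finset.sum_congr rfl fun A _ => ?_
    rw [if_pos rfl, if_pos rfl]
    split_ifs with h1
    · rw [Finset.prod_congr rfl fun x hx => by rw [hs _ (h1 x hx)]]
    · rfl

/-- `sum_plus` for numerator and denominator, `boltz_eq`, `nOf_spinOf`, `prod_eray`; the factor `exp (β J |E|)` cancels -/
theorem _root_.Crest.Agent.R165.ising_plus {D : Set ℂ} {a : ℝ} (h : (domainSites D a).Finite) (hc : ExtConn (domainSites D a))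
    (J lam β : ℝ) {R : ℕ} {V : Finset Site → ℝ} (hV : PotOK R V) (S : Finset Site) (O : Cfg → ℝ) :
    domainExpect D a .plus J lam R V β (fun σ => (∏ v ∈ S, spinSign (σ v)) * O (nOf σ)) =
      Zf (ePlus_finite h).toFinset (wPlusT (Real.exp (-2 * β * J)) S)
          (fun n => pertF (shapes h.toFinset .plus R) (β * lam) V n * O n) /
        Zf (ePlus_finite h).toFinset (wPlusT (Real.exp (-2 * β * J)) ∅) (pertF (shapes h.toFinset .plus R) (β * lam) V) := by
  have hE : ∀ e, e ∈ (ePlus_finite h).toFinset ↔ e ∈ ePlus ↑h.toFinset := by simp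
  have hc' : ExtConn ↑h.toFinset := by simpa using hc
  have k := fun (S : Finset Site) (O : Cfg → ℝ) => (sum_plus _ hc' _ hE fun s => (∏ v ∈ S, spinSign (s v)) * O (nOf s) *
    Real.exp (-β * domainEnergy h.toFinset .plus J lam R V s)).trans
      (ising_key hV h.toFinset .plus (ePlus_finite h).toFinset (by simp) J lam β _ S O (w := wPlusT (Real.exp (-2 * β * J)) S)
        fun e he => by rw [if_pos he, wPlusT])
  have k0 := k ∅ fun _ => 1
  simp only [Finset.prod_empty, mul_one, one_mul] at k0
  rw [domainExpect, dif_pos h, k, k0, mul_div_mul_left _ _ (Real.exp_pos _).ne']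

/-- `sum_free` with `E = eNear ..` (the integrand depends only on the spins in `T`: `boltz_eq` read backwards, or `sB_dependsOn`), `boltz_eq` with the finset of `eIn`; `N` and `exp (β J |E|)` cancel -/
theorem _root_.Crest.Agent.R165.ising_free {D : Set ℂ} {a : ℝ} (h : (domainSites D a).Finite)
    (J lam β : ℝ) {R : ℕ} {V : Finset Site → ℝ} (hV : PotOK R V) (S : Finset Site) (hS : ↑S ⊆ domainSites D a)
    (hSe : Even S.card) (O : Cfg → ℝ) (hO : DependsOn O (eIn (domainSites D a))) (r : ℕ) (hr : R + 3 ≤ r) :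
    domainExpect D a .free J lam R V β (fun σ => (∏ v ∈ S, spinSign (σ v)) * O (nOf σ)) =
      Zf (eNear h.toFinset r) (wFreeT (Real.exp (-2 * β * J)) (domainSites D a) S)
          (fun n => pertF (shapes h.toFinset .free R) (β * lam) V n * O n) /
        Zf (eNear h.toFinset r) (wFreeT (Real.exp (-2 * β * J)) (domainSites D a) ∅)
          (pertF (shapes h.toFinset .free R) (β * lam) V) := by
  have hf : (eIn (domainSites D a)).Finite := (ePlus_finite h).subset fun e he => Or.inl he.1
  obtain ⟨N, hN, hs⟩ := sum_free h.toFinset (eNear h.toFinset r) fun e he => by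
    obtain ⟨x, j⟩ := e
    simp only [eNear, Finset.mem_product, Finset.mem_univ, and_true, Finset.mem_biUnion, box, Finset.mem_Icc]
    rcases he with he | he
    · refine ⟨_, he, ?_⟩
      fin_cases j <;> simp [edgeB0] <;> omega
    · refine ⟨_, he, ?_⟩
      simp [edgeB1]
      omega
  have k := fun (S : Finset Site) (hS : ↑S ⊆ domainSites D a) (O : Cfg → ℝ) (hO : DependsOn O (eIn (domainSites D a))) =>
    (hs (fun s => (∏ v ∈ S, spinSign (s v)) * O (nOf s) *
      Real.exp (-β * domainEnergy h.toFinset .free J lam R V s)) fun s s' hs => by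
        have hs' : ∀ z ∈ domainSites D a, s z = s' z := by simpa using hs
        beta_reduce
        rw [ising_dep _ J lam R V hs, Finset.prod_congr rfl fun v hv => by rw [hs' v (hS hv)],
          hO (x := nOf s) (y := nOf s') fun e he => by rw [nOf, nOf, hs' _ he.1, hs' _ he.2]]).symm.trans
      (ising_key hV h.toFinset .free hf.toFinset (by simp) J lam β _ S O
        (w := wFreeT (Real.exp (-2 * β * J)) (domainSites D a) S) fun e _ => by simp [wFreeT])
  have k0 := k ∅ (by simp) (fun _ => 1) fun _ _ _ => rfl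
  simp only [Finset.prod_empty, mul_one, one_mul] at k0
  rw [domainExpect, dif_pos h, ← mul_div_mul_left _ _ hN, k S hS O hO, k0, mul_div_mul_left _ _ (Real.exp_pos _).ne']

theorem _root_.Crest.Agent.R165.exp_critical {J : ℝ} (hJ : 0 < J) : Real.exp (-2 * criticalBeta J * J) = tc := by
  have h1 : 0 < 1 + Real.sqrt 2 := by positivity
  rw [criticalBeta, show -2 * (Real.log (1 + Real.sqrt 2) / (2 * J)) * J = -Real.log (1 + Real.sqrt 2) by field_simp,
    Real.exp_neg, Real.exp_log h1, tc]
  refine inv_eq_of_mul_eq_one_right ?_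
  have := Real.mul_self_sqrt (show (0 : ℝ) ≤ 2 by norm_num)
  linear_combination this

end Crest.Agent.R165.BA
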