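import Crest.Agent.R165.Rep
import Crest.Agent.R165.B.Alg

/-! # R165/A: matrix form of `opA`, the ultra-local kernel (owner helper66) -/

set_option autoImplicit false
noncomputable section
open Classical Crest.ProbabilityR.IsingModel

namespace Crest.Agent.R165.BA

def G0 : Fin 4 → Fin 4 → ℝ := ![![0, 1, -1, 1], ![-1, 0, 1, -1], ![1, -1, 0, 1], ![-1, 1, -1, 0]]
/-- the kernel for `w = 0` -/
def g0 (i j : HE) : ℝ := if i.1 = j.1 then G0 i.2 j.2 else 0
def A0 (α β : Fin 4) : ℝ := if α < β then 1 else if β < α then -1 else 0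
/-- vertex part of the matrix, with a weight per site -/
def a0K (c : Site → ℝ) (i j : HE) : ℝ := if i.1 = j.1 then c i.1 * A0 i.2 j.2 else 0
def oppHE (i : HE) : HE := (i.1 + dv i.2, i.2 + 2)
def sgA (α : Fin 4) : ℝ := if α < 2 then 1 else -1
/-- edge part of the matrix -/
def qM (w : Edge → ℝ) (i j : HE) : ℝ := if j = oppHE i then sgA i.2 * w (edgeOf i.1 i.2) else 0
/-- all half-edges at the sites of `W` -/
abbrev hes (W : Finset Site) : Finset HE := W ×ˢ (Finset.univ : Finset (Fin 4))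

/-! ### task Mat-a -/

/-- `obtain ⟨x, α⟩ := i; fin_cases α; simp [opA, opp, sv, A0, sgA, oppHE, Fin.sum_univ_four]` -/
theorem opA_eq (w : Edge → ℝ) (s : Fn) (i : HE) :
    opA w s i = ∑ β, A0 i.2 β * s (i.1, β) + sgA i.2 * w (edgeOf i.1 i.2) * s (oppHE i) := by
  obtain ⟨x, α⟩ := i
  fin_cases α <;> simp [opA, opp, sv, A0, sgA, oppHE, Fin.sum_univ_four] <;> first | rfl | ring_nf

theorem edgeOf_he0 (e : Edge) : edgeOf (he0 e).1 (he0 e).2 = e := by
  obtain ⟨x, j⟩ := e
  fin_cases j <;> simp [he0, edgeOf]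

theorem edgeOf_he1 (e : Edge) : edgeOf (he1 e).1 (he1 e).2 = e := by
  obtain ⟨x, j⟩ := e
  fin_cases j <;> simp [he1, edgeOf, uv]

theorem he0_ne_he1 (e e' : Edge) : he0 e ≠ he1 e' := by
  obtain ⟨x, j⟩ := e
  obtain ⟨y, l⟩ := e'
  fin_cases j <;> fin_cases l <;> simp [he0, he1]

theorem oppHE_cases (i : HE) :
    (he0 (edgeOf i.1 i.2) = i ∧ he1 (edgeOf i.1 i.2) = oppHE i ∧ sgA i.2 = 1) ∨
    (he1 (edgeOf i.1 i.2) = i ∧ he0 (edgeOf i.1 i.2) = oppHE i ∧ sgA i.2 = -1) := by
  obtain ⟨⟨x, y⟩, α⟩ := i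
  fin_cases α <;> simp [he0, he1, edgeOf, uv, dv, oppHE, sgA, sub_eq_add_neg]

theorem oppHE_oppHE (i : HE) : oppHE (oppHE i) = i := by
  obtain ⟨⟨x, y⟩, α⟩ := i
  fin_cases α <;> simp [dv, oppHE]

theorem antisym_g0 : Antisym g0 := by
  rintro ⟨x, α⟩ ⟨y, β⟩
  by_cases h : x = y
  · subst h
    fin_cases α <;> fin_cases β <;> simp [g0, G0]
  · simp [g0, h, Ne.symm h]

theorem antisym_a0K (c : Site → ℝ) : Antisym (a0K c) := by
  rintro ⟨x, α⟩ ⟨y, β⟩
  by_cases h : x = y
  · subst h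
    fin_cases α <;> fin_cases β <;> simp [a0K, A0]
  · simp [a0K, h, Ne.symm h]

theorem antisym_qM (w : Edge → ℝ) : Antisym (qM w) := by
  intro i j
  by_cases h : j = oppHE i
  · subst h
    simp only [qM, oppHE_oppHE, if_true]
    obtain ⟨⟨x, y⟩, α⟩ := i
    fin_cases α <;> simp [dv, oppHE, sgA, edgeOf, sub_eq_add_neg]
  · have h' : i ≠ oppHE j := fun e => h (by rw [e, oppHE_oppHE])
    simp [qM, h, h']

theorem isKer_g0 : IsKer 0 g0 := by
  refine ⟨antisym_g0, ?_⟩
  rintro ⟨x, α⟩ ⟨y, β⟩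
  rw [opA_eq]
  by_cases h : x = y
  · subst h
    fin_cases α <;> fin_cases β <;> simp [g0, G0, A0, Fin.sum_univ_four]
  · simp [g0, h, Ne.symm h]

/-- uniqueness: for fixed `k` and site `x` the four equations `Σ_β A0 α β * g k (x, β) = δ` determine `g k (x, ·)` (`linarith`) -/
theorem eq_g0 {g : HE → HE → ℝ} (h : IsKer 0 g) : g = g0 := by
  funext k ⟨x, β⟩
  have h1 := fun α => (h.2 k (x, α)).trans (isKer_g0.2 k (x, α)).symm
  have h2 := h1 0
  have h3 := h1 1
  have h4 := h1 2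
  have h5 := h1 3
  simp only [opA_eq, A0, Fin.sum_univ_four, Pi.zero_apply, mul_zero, zero_mul, add_zero] at h2 h3 h4 h5
  simp at h2 h3 h4 h5
  fin_cases β <;> simp <;> linarith

theorem aM_eq (w : Edge → ℝ) (i j : HE) : opA w (fun k => if k = j then 1 else 0) i = a0K 1 i j + qM w i j := by
  rw [opA_eq]
  congr 1
  · obtain ⟨x, α⟩ := i
    obtain ⟨y, β⟩ := j
    by_cases h : x = y
    · subst h
      simp [a0K]
    · simp [a0K, h]
  · simp only [qM, eq_comm (a := j)]
    split_ifs <;> simp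

/-- matrix form of `opA` on a finite set of sites -/
theorem sum_aM (w : Edge → ℝ) (W : Finset Site) (f : Fn) {i : HE} (hi : i.1 ∈ W)
    (hW : w (edgeOf i.1 i.2) ≠ 0 → i.1 + dv i.2 ∈ W) :
    ∑ j ∈ hes W, (a0K 1 i j + qM w i j) * f j = opA w f i := by
  rw [opA_eq]
  simp only [add_mul, Finset.sum_add_distrib]
  congr 1
  · rw [Finset.sum_product, Finset.sum_eq_single_of_mem i.1 hi]
    · simp [a0K]
    · intro y _ hy
      simp [a0K, hy.symm]
  · simp only [qM, ite_mul, zero_mul, Finset.sum_ite_eq']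
    split_ifs with h
    · rfl
    · have : w (edgeOf i.1 i.2) = 0 := by
        by_contra h'
        exact h (Finset.mem_product.2 ⟨hW h', Finset.mem_univ _⟩)
      simp [this]

theorem sum_a0K_g0 (W : Finset Site) {i : HE} (hi : i ∈ hes W) (k : HE) :
    ∑ j ∈ hes W, a0K 1 i j * g0 k j = if i = k then 1 else 0 := by
  rw [← isKer_g0.2 k i, ← sum_aM 0 W (g0 k) (Finset.mem_product.1 hi).1 fun h => absurd rfl h]
  simp [qM]

/-! ### task Mat-b -/

/-- the half-edges of the edges of `γ` (`Finset.prod_bij'`/`prod_disjUnion` of the images of `he0`, `he1`; `oppHE_cases`) -/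
theorem prod_he {M : Type} [CommMonoid M] (W : Finset Site) (γ : Finset Edge)
    (hW : ∀ e ∈ γ, e.1 ∈ W ∧ e.1 + uv e.2 ∈ W) (f : HE → M) :
    ∏ i ∈ (hes W).filter (fun i => edgeOf i.1 i.2 ∈ γ), f i = ∏ e ∈ γ, (f (he0 e) * f (he1 e)) := by
  have e : (hes W).filter (fun i => edgeOf i.1 i.2 ∈ γ) = γ.image he0 ∪ γ.image he1 := by
    ext i
    simp only [Finset.mem_filter, Finset.mem_union, Finset.mem_image, Finset.mem_product, Finset.mem_univ, and_true]
    constructor
    · rintro ⟨-, h⟩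
      rcases oppHE_cases i with h' | h'
      · exact Or.inl ⟨_, h, h'.1⟩
      · exact Or.inr ⟨_, h, h'.1⟩
    · rintro (⟨e, he, rfl⟩ | ⟨e, he, rfl⟩)
      · exact ⟨(hW e he).1, by rwa [edgeOf_he0]⟩
      · exact ⟨(hW e he).2, by rwa [edgeOf_he1]⟩
  rw [e, Finset.prod_union, Finset.prod_image, Finset.prod_image, Finset.prod_mul_distrib]
  · exact fun e _ e' _ h => by rw [← edgeOf_he1 e, h, edgeOf_he1]
  · exact fun e _ e' _ h => by rw [← edgeOf_he0 e, h, edgeOf_he0]
  · rw [Finset.disjoint_left]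
    intro i h h'
    obtain ⟨e, -, rfl⟩ := Finset.mem_image.1 h
    obtain ⟨e', -, h'⟩ := Finset.mem_image.1 h'
    exact he0_ne_he1 _ _ h'.symm

/-- additive version (apply `prod_he` to `Multiplicative M`) -/
theorem sum_he {M : Type} [AddCommMonoid M] (W : Finset Site) (γ : Finset Edge)
    (hW : ∀ e ∈ γ, e.1 ∈ W ∧ e.1 + uv e.2 ∈ W) (f : HE → M) :
    ∑ i ∈ (hes W).filter (fun i => edgeOf i.1 i.2 ∈ γ), f i = ∑ e ∈ γ, (f (he0 e) + f (he1 e)) := by
  exact prod_he (M := Multiplicative M) W γ hW f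

theorem th_swap {I : Type} (i j : I) : th i * th j = -(th j * th i) := by
  exact iota_swap _ _

theorem th_sq {I : Type} (i : I) : th i * th i = 0 := by
  exact ExteriorAlgebra.ι_sq_zero _

theorem eM_sq {I : Type} (ι : HE → I) (e : Edge) : eM ι e * eM ι e = 0 := by
  refine Subtype.ext ?_
  change th (ι (he0 e)) * th (ι (he1 e)) * (th (ι (he0 e)) * th (ι (he1 e))) = 0
  rw [mul_assoc, ← mul_assoc (th (ι (he1 e))), th_swap (ι (he1 e)), neg_mul, mul_assoc, th_sq, mul_zero, neg_zero,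
    mul_zero]

/-- the inner sum over `j` keeps `j = oppHE i`; then `sum_he` and `th_swap` -/
theorem quad_qM (E : Finset Edge) (w : Edge → ℝ) (hw : ∀ e, e ∉ E → w e = 0) (W : Finset Site)
    (hW : ∀ e ∈ E, e.1 ∈ W ∧ e.1 + uv e.2 ∈ W) :
    quad (hes W) (qM w) = ((∑ e ∈ E, w e • eM id e : Ev HE) : Gr HE) := by
  have h0 : ∀ e, oppHE (he0 e) = he1 e ∧ sgA (he0 e).2 = 1 := fun e => by
    rcases oppHE_cases (he0 e) with h | h <;> rw [edgeOf_he0] at h
    · exact ⟨h.2.1.symm, h.2.2⟩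
    · exact absurd h.1.symm (he0_ne_he1 _ _)
  have h1 : ∀ e, oppHE (he1 e) = he0 e ∧ sgA (he1 e).2 = -1 := fun e => by
    rcases oppHE_cases (he1 e) with h | h <;> rw [edgeOf_he1] at h
    · exact absurd h.1 (he0_ne_he1 _ _)
    · exact ⟨h.2.1.symm, h.2.2⟩
  have h2 : ∀ i, ∑ j ∈ hes W, qM w i j • (th i * th j) = if edgeOf i.1 i.2 ∈ E then
      (sgA i.2 * w (edgeOf i.1 i.2)) • (th i * th (oppHE i)) else 0 := fun i => by
    simp only [qM, ite_smul, zero_smul, Finset.sum_ite_eq']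
    by_cases h : edgeOf i.1 i.2 ∈ E
    · rw [if_pos h, if_pos]
      rcases oppHE_cases i with h' | h' <;> rw [← h'.2.1]
      · exact Finset.mem_product.2 ⟨(hW _ h).2, Finset.mem_univ _⟩
      · exact Finset.mem_product.2 ⟨(hW _ h).1, Finset.mem_univ _⟩
    · simp [h, hw _ h]
  rw [quad, Finset.sum_congr rfl fun i _ => h2 i, ← Finset.sum_filter, sum_he W E hW, Finset.smul_sum,
    AddSubmonoidClass.coe_finsetSum]
  refine Finset.sum_congr rfl fun e _ => ?_
  rw [(h0 e).1, (h0 e).2, (h1 e).1, (h1 e).2, edgeOf_he0, edgeOf_he1, th_swap (he1 e)]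
  change _ = w e • (th (he0 e) * th (he1 e))
  module

theorem quad_a0K (c : Site → ℝ) (W : Finset Site) :
    quad (hes W) (a0K c) = ((∑ x ∈ W, c x • a0M id x : Ev HE) : Gr HE) := by
  rw [quad, Finset.sum_product, Finset.smul_sum, AddSubmonoidClass.coe_finsetSum]
  refine Finset.sum_congr rfl fun x hx => ?_
  have h1 : ∀ α, ∑ j ∈ hes W, a0K c (x, α) j • (th (x, α) * th j) = c x • ∑ β, ((if α < β then th (x, α) * th (x, β) else 0) +
      if β < α then th (x, β) * th (x, α) else 0) := fun α => by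
    rw [Finset.sum_product, Finset.sum_eq_single_of_mem x hx fun y _ hy => by simp [a0K, hy.symm], Finset.smul_sum]
    refine Finset.sum_congr rfl fun β _ => ?_
    rcases lt_trichotomy α β with h | rfl | h
    · simp [a0K, A0, h, h.not_gt]
    · simp [a0K, A0]
    · rw [th_swap (x, β), a0K, if_pos rfl, A0, if_neg h.not_gt, if_pos h, if_neg h.not_gt, if_pos h]
      simp
  have h2 : ((a0M id x : Ev HE) : Gr HE) = ∑ α, ∑ β, if α < β then th (x, α) * th (x, β) else 0 := by
    simp only [a0M, AddSubmonoidClass.coe_finsetSum]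
    refine Finset.sum_congr rfl fun α _ => Finset.sum_congr rfl fun β _ => ?_
    split_ifs <;> rfl
  simp only [h1, Finset.sum_add_distrib, ← Finset.smul_sum]
  rw [Finset.sum_comm (f := fun α β : Fin 4 => if β < α then th (x, β) * th (x, α) else 0), ← h2]
  change _ = c x • ((a0M id x : Ev HE) : Gr HE)
  module

/-- reindex by `↥(hes W) ≃ ↥W × Fin 4`: the matrix is `1 ⊗ₖ A0` (`Matrix.det_kronecker`) or `Matrix.blockDiagonal`; `det A0 = 1` -/
theorem det_a0K (W : Finset Site) : (Matrix.of fun i j : ↥(hes W) => a0K 1 i j).det = 1 := by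
  let e : Fin 4 × ↥W ≃ ↥(hes W) :=
    { toFun := fun p => ⟨(p.2.1, p.1), Finset.mem_product.2 ⟨p.2.2, Finset.mem_univ _⟩⟩
      invFun := fun i => (i.1.2, ⟨i.1.1, (Finset.mem_product.1 i.2).1⟩)
      left_inv := fun _ => rfl
      right_inv := fun _ => rfl }
  have h1 : (Matrix.of fun i j : ↥(hes W) => a0K 1 i j).submatrix e e = Matrix.blockDiagonal fun _ => Matrix.of A0 := by
    ext ⟨α, x⟩ ⟨β, y⟩
    rw [Matrix.blockDiagonal_apply]
    change (if (x : Site) = y then 1 * A0 α β else 0) = if x = y then A0 α β else 0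
    rw [one_mul]
    by_cases h : x = y
    · rw [if_pos h, if_pos (congrArg Subtype.val h)]
    · rw [if_neg h, if_neg fun h' => h (Subtype.ext h')]
  have h2 : Matrix.of A0 = !![0, 1, 1, 1; -1, 0, 1, 1; -1, -1, 0, 1; -1, -1, -1, 0] := by
    ext α β
    fin_cases α <;> fin_cases β <;> simp [A0]
  have h3 : (Matrix.of A0).det = 1 := by
    rw [h2]
    simp [Matrix.det_succ_row_zero, Fin.sum_univ_succ, Fin.succAbove]
    norm_num
  rw [← Matrix.det_submatrix_equiv_self e, h1, Matrix.det_blockDiagonal]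
  simp [h3]

theorem matb_nil {I : Type} (a : Ev I) (h : augE a = 0) : IsNilpotent a := by
  obtain ⟨n, hn⟩ := nilpotent_of_aug (a : Gr I) h
  exact ⟨n, Subtype.ext (by simpa using hn)⟩

theorem matb_th2 {I : Type} (i j : I) : augE (th2 i j) = 0 := by
  change aug (th i * th j) = 0
  rw [map_mul, th, aug_iota, zero_mul]

/-- `IsNilpotent.map_exp` for `Subalgebra.val`; `nilpotent_of_aug` -/
theorem coe_exA {I : Type} (a : Ev I) (h : augE a = 0) : ((exA augE a : Ev I) : Gr I) = IsNilpotent.exp (a : Gr I) := by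
  rw [exA, h, Real.exp_zero, one_smul, map_zero, sub_zero]
  exact (matb_nil a h).map_exp (Subalgebra.val _)

theorem augE_eM {I : Type} (ι : HE → I) (e : Edge) : augE (eM ι e) = 0 := by
  exact matb_th2 _ _

theorem augE_a0M {I : Type} (ι : HE → I) (x : Site) : augE (a0M ι x) = 0 := by
  simp only [a0M, map_sum]
  refine Finset.sum_eq_zero fun α _ => Finset.sum_eq_zero fun β _ => ?_
  split_ifs
  · exact matb_th2 _ _
  · exact map_zero _

theorem exA_add {I : Type} (a b : Ev I) (ha : augE a = 0) (hb : augE b = 0) :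
    exA augE (a + b) = exA augE a * exA augE b := by
  simp only [exA, map_add, ha, hb, add_zero, Real.exp_zero, one_smul, map_zero, sub_zero]
  exact IsNilpotent.exp_add_of_commute (Commute.all _ _) (matb_nil a ha) (matb_nil b hb)

/-- induction on `E`: `exA_add`, and `exp x = 1 + x` when `x * x = 0` (`IsNilpotent.exp_eq_sum` with `k = 2`) -/
theorem exA_edges {I : Type} (ι : HE → I) (E : Finset Edge) (w : Edge → ℝ) :
    exA augE (∑ e ∈ E, w e • eM ι e) = ∏ e ∈ E, (1 + w e • eM ι e) := by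
  induction E using Finset.induction_on with
  | empty => simp [exA]
  | insert e E he ih =>
    have h1 : augE (w e • eM ι e) = 0 := by rw [map_smul, augE_eM, smul_zero]
    rw [Finset.sum_insert he, Finset.prod_insert he, exA_add _ _ h1 (by simp [map_sum, augE_eM]), ih, exA, h1,
      Real.exp_zero, one_smul, map_zero, sub_zero, IsNilpotent.exp_eq_sum (k := 2) (by
        rw [sq, smul_mul_smul_comm, eM_sq, smul_zero])]
    simp [Finset.sum_range_succ]

/-- `exp` of an element of a subalgebra is a finite sum of rational multiples of powers -/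
theorem exp_mem_supA {I : Type} {S : Set I} {x : Gr I} (h : x ∈ supA S) : IsNilpotent.exp x ∈ supA S := by
  refine Subalgebra.sum_mem _ fun i _ => ?_
  rw [inv_natCast_smul_eq ℚ ℝ]
  exact Subalgebra.smul_mem _ (Subalgebra.pow_mem _ h _) _

end Crest.Agent.R165.BA
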