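import Crest.Agent.R165.A.Mat

/-! # R165/A: spectators; integrating the half-edge generators only (owner helper66) -/

set_option autoImplicit false
noncomputable section
open Classical Crest.ProbabilityR.IsingModel

namespace Crest.Agent.R165.BA

variable {I : Type}

/-- `CliffordAlgebra.even_induction` -/
theorem gmap_mem_even {J : Type} (T : GV I →ₗ[ℝ] GV J) (a : Ev I) :
    gmap T (a : Gr I) ∈ CliffordAlgebra.even (0 : QuadraticForm ℝ (GV J)) := by
  obtain ⟨a, ha⟩ := a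
  change gmap T a ∈ CliffordAlgebra.evenOdd (0 : QuadraticForm ℝ (GV J)) 0
  induction a, ha using CliffordAlgebra.even_induction with
  | algebraMap r => rw [AlgHom.commutes]; exact SetLike.algebraMap_mem_graded _ _
  | add _ _ _ _ hx hy => rw [map_add]; exact Submodule.add_mem _ hx hy
  | ι_mul_ι_mul a b y hy h =>
    rw [map_mul, map_mul, gmap_iota, gmap_iota]
    exact mul_eo (add_zero 0) (CliffordAlgebra.ι_mul_ι_mem_evenOdd_zero _ _ _) h

/-- the embedding of the half-edge algebra -/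
def iE (ι : HE → I) : Ev HE →ₐ[ℝ] Ev I :=
  ((gmap (Finsupp.lmapDomain ℝ ℝ ι)).comp (Subalgebra.val _)).codRestrict _ fun a => gmap_mem_even _ a

theorem coe_iE (ι : HE → I) (a : Ev HE) : (iE ι a : Gr I) = gmap (Finsupp.lmapDomain ℝ ℝ ι) (a : Gr HE) := rfl

theorem gmap_th (ι : HE → I) (i : HE) : gmap (Finsupp.lmapDomain ℝ ℝ ι) (th i) = th (ι i) := by
  rw [th, gmap_iota, Finsupp.lmapDomain_apply, Finsupp.mapDomain_single, th]

theorem aug_gmap {J : Type} (T : GV I →ₗ[ℝ] GV J) (x : Gr I) : aug (gmap T x) = aug x := by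
  induction x using CliffordAlgebra.left_induction with
  | algebraMap r => rw [AlgHom.commutes, AlgHom.commutes, AlgHom.commutes]
  | add _ _ hx hy => simp only [map_add, hx, hy]
  | ι_mul x m hx => rw [map_mul, map_mul, map_mul, gmap_iota, aug_iota, aug_iota, zero_mul, zero_mul]

theorem prt_th2 (ι : HE → I) (i j : HE) : iE ι (th2 i j) = th2 (ι i) (ι j) :=
  Subtype.ext (by
    change gmap _ (th i * th j) = th (ι i) * th (ι j)
    rw [map_mul, gmap_th, gmap_th])

theorem iE_eM (ι : HE → I) (e : Edge) : iE ι (eM id e) = eM ι e := by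
  exact prt_th2 ι _ _

theorem iE_a0M (ι : HE → I) (x : Site) : iE ι (a0M id x) = a0M ι x := by
  simp only [a0M, map_sum, apply_ite (iE ι), map_zero, prt_th2, id]

theorem iE_pLoc (ι : HE → I) (ρ : Site → ℝ) (w w' : Edge → ℝ) (x : Site) :
    iE ι (pLoc id ρ w w' x) = pLoc ι ρ w w' x := by
  simp only [pLoc, map_add, map_smul, map_sum, iE_a0M, iE_eM]

/-- `IsNilpotent.map_exp`, `aug_gmap` -/
theorem iE_exA (ι : HE → I) (a : Ev HE) (h : augE a = 0) : iE ι (exA augE a) = exA augE (iE ι a) := by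
  have h' : augE (iE ι a) = 0 := (aug_gmap _ _).trans h
  have hn : IsNilpotent a := by
    obtain ⟨n, hn⟩ := nilpotent_of_aug (a : Gr HE) h
    exact ⟨n, Subtype.ext (by simpa using hn)⟩
  rw [exA, exA, h, h', map_smul, map_zero, map_zero, sub_zero, sub_zero, hn.map_exp]

/-- **spectators.** `mu_mul` with `S = (range ι)ᶜ`, `T = range ι`; `mu (extK ι g) F = mu 0 F = F` (`mu_congr`, `mu_zero`);
`mu (extK ι g) (gmap ι X) = gmap ι (mu g X)` (`gmap_mu`, `S = univ`, `extK ι g (ι a) (ι b) = g a b`); the projection `P` in `hΦ` fixes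
`th i` for `i ∉ range ι` (so `gmap P F = F`, `Algebra.adjoin_induction`) and kills `th (ι a)` (so `gmap P (gmap ι Z) = algebraMap (aug Z)`). -/
theorem part_gauss (ι : HE → I) (hι : Function.Injective ι) (g : HE → HE → ℝ) (Φ : Ev I →ₐ[ℝ] Ev I)
    (hΦ : ∀ a : Ev I, (Φ a : Gr I) = gmap (Finsupp.lmapDomain ℝ ℝ id ∘ₗ
      (Finsupp.supported ℝ ℝ (Set.range ι)ᶜ).subtype ∘ₗ Finsupp.restrictDom ℝ ℝ (Set.range ι)ᶜ) a)
    (F : Ev I) (hF : (F : Gr I) ∈ supA (Set.range ι)ᶜ) (X : Ev HE) :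
    Φ (muE (extK ι g) (F * iE ι X)) = gauss g (X : Gr HE) • F := by
  refine Subtype.ext ?_
  rw [hΦ]
  generalize hP : Finsupp.lmapDomain ℝ ℝ id ∘ₗ (Finsupp.supported ℝ ℝ (Set.range ι)ᶜ).subtype ∘ₗ
    Finsupp.restrictDom ℝ ℝ (Set.range ι)ᶜ = P
  have hP1 : ∀ i, P (Finsupp.single i 1) = if i ∈ (Set.range ι)ᶜ then Finsupp.single i 1 else 0 := fun i => by
    rw [← hP]
    simp only [LinearMap.comp_apply, Finsupp.lmapDomain_apply, Finsupp.mapDomain_id, Submodule.subtype_apply,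
      Finsupp.restrictDom_apply]
    split_ifs with h
    · exact Finsupp.filter_single_of_pos _ h
    · exact Finsupp.filter_single_of_neg _ h
  have k0 : ∀ i ∈ (Set.range ι)ᶜ, ∀ j, extK ι g i j = 0 ∧ extK ι g j i = 0 := fun i hi j =>
    ⟨dif_neg fun h => hi h.1, dif_neg fun h => hi h.2⟩
  have k1 : ∀ a b, extK ι g (ι a) (ι b) = g a b := fun a b => by
    have h : (∃ a', ι a' = ι a) ∧ ∃ b', ι b' = ι b := ⟨⟨a, rfl⟩, b, rfl⟩
    rw [extK, dif_pos h, hι h.1.choose_spec, hι h.2.choose_spec]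
  have hX : ∀ Z : Gr HE, gmap (Finsupp.lmapDomain ℝ ℝ ι) Z ∈ supA (Set.range ι) := fun Z => by
    refine supA_induction ?_ (fun x y hx hy => ?_) (fun c x hx => ?_) (fun i _ x _ hx => ?_) (mem_supA_univ Z)
    · rw [map_one]; exact Subalgebra.one_mem _
    · rw [map_add]; exact Subalgebra.add_mem _ hx hy
    · rw [map_smul]; exact Subalgebra.smul_mem _ hx _
    · rw [map_mul, gmap_th]; exact Subalgebra.mul_mem _ (th_mem_supA ⟨i, rfl⟩) hx
  have hZ : ∀ Z : Gr HE, gmap P (gmap (Finsupp.lmapDomain ℝ ℝ ι) Z) = aug Z • (1 : Gr I) := fun Z => by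
    refine supA_induction ?_ (fun x y hx hy => ?_) (fun c x hx => ?_) (fun i _ x _ hx => ?_) (mem_supA_univ Z)
    · simp only [map_one, one_smul]
    · simp only [map_add, hx, hy, add_smul]
    · simp only [map_smul, hx, smul_smul, smul_eq_mul]
    · rw [map_mul, map_mul, map_mul, gmap_th, th, gmap_iota, hP1, if_neg (fun h => h ⟨i, rfl⟩), map_zero, th,
        aug_iota, zero_mul, zero_mul, zero_smul]
  have hPF : ∀ x ∈ supA (Set.range ι)ᶜ, gmap P x = x := fun x hx => by
    refine supA_induction ?_ (fun x y hx hy => ?_) (fun c x hx => ?_) (fun i hi x _ hx => ?_) hx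
    · rw [map_one]
    · rw [map_add, hx, hy]
    · rw [map_smul, hx]
    · rw [map_mul, hx, th, gmap_iota, hP1, if_pos hi]
  change gmap P (mu (extK ι g) ((F : Gr I) * gmap (Finsupp.lmapDomain ℝ ℝ ι) (X : Gr HE))) =
    gauss g (X : Gr HE) • (F : Gr I)
  rw [mu_mul (fun i hi j _ => k0 i hi j) hF (hX _), mu_congr (g' := 0) (fun i hi j _ => (k0 i hi j).1) hF, mu_zero,
    ← gmap_mu _ (g := g) (S := Set.univ) (fun i _ j _ => by
      simp only [Finsupp.lmapDomain_apply, Finsupp.mapDomain_single, bil_single, k1]) (mem_supA_univ _),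
    map_mul, hPF _ hF, hZ, mul_smul_comm, mul_one, gauss_apply]

end Crest.Agent.R165.BA
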