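import Crest.Agent.R165.A.Mat

/-! # R165/A: rescaling the generators site by site (owner helper66) -/

set_option autoImplicit false
noncomputable section
open Classical Crest.ProbabilityR.IsingModel

namespace Crest.Agent.R165.BA

/-- `θ_i ↦ ρ i.1 • θ_i` -/
def scl (ρ : Site → ℝ) : GV HE →ₗ[ℝ] GV HE := Finsupp.linearCombination ℝ fun i : HE => Finsupp.single i (ρ i.1)

theorem resc_single (ρ : Site → ℝ) (i : HE) : scl ρ (Finsupp.single i 1) = ρ i.1 • Finsupp.single i 1 := by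
  simp [scl]

theorem gmap_scl_th (ρ : Site → ℝ) (i : HE) : gmap (scl ρ) (th i) = ρ i.1 • th i := by
  rw [th, gmap, ExteriorAlgebra.map_apply_ι, resc_single, map_smul]

theorem gmap_scl_eM (ρ : Site → ℝ) (e : Edge) :
    gmap (scl ρ) (eM id e : Ev HE) = (ρ e.1 * ρ (e.1 + uv e.2)) • ((eM id e : Ev HE) : Gr HE) := by
  change gmap (scl ρ) (th (he0 e) * th (he1 e)) = _ • (th (he0 e) * th (he1 e))
  rw [map_mul, gmap_scl_th, gmap_scl_th, smul_mul_smul_comm]
  rfl

theorem gmap_scl_mem (ρ : Site → ℝ) {S : Set HE} {Y : Gr HE} (h : Y ∈ supA S) : gmap (scl ρ) Y ∈ supA S := by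
  refine supA_induction ?_ (fun x y hx hy => ?_) (fun c x hx => ?_) (fun i hi x _ ih => ?_) h
  · rw [map_one]; exact Subalgebra.one_mem _
  · rw [map_add]; exact Subalgebra.add_mem _ hx hy
  · rw [map_smul]; exact Subalgebra.smul_mem _ hx c
  · rw [map_mul, gmap_scl_th]
    exact Subalgebra.mul_mem _ (Subalgebra.smul_mem _ (th_mem_supA hi) _) ih

theorem resc_ring {R : Type} [Ring R] (t : Fin 4 → R) (h1 : ∀ i j, t i * t j = -(t j * t i)) (h2 : ∀ i, t i * t i = 0)
    {a : R} (ha : a = t 0 * t 1 + t 0 * t 2 + t 0 * t 3 + t 1 * t 2 + t 1 * t 3 + t 2 * t 3) :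
    a ^ 2 = t 0 * (t 1 * (t 2 * t 3)) + t 0 * (t 1 * (t 2 * t 3)) ∧ a ^ 3 = 0 := by
  have h3 : ∀ i j z, t i * (t j * z) = -(t j * (t i * z)) := fun i j z => by
    rw [← mul_assoc, h1, neg_mul, mul_assoc]
  have h4 : ∀ i z, t i * (t i * z) = 0 := fun i z => by rw [← mul_assoc, h2, zero_mul]
  have e : a ^ 2 = t 0 * (t 1 * (t 2 * t 3)) + t 0 * (t 1 * (t 2 * t 3)) := by
    rw [sq, ha]
    simp only [add_mul, mul_add, mul_assoc, h1 1 0, h1 2 0, h1 3 0, h1 2 1, h1 3 1, h1 3 2, h3 1 0, h3 2 0, h3 3 0,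
      h3 2 1, h3 3 1, h3 3 2, h2, h4, mul_neg, neg_neg, mul_zero, neg_zero, add_zero, zero_add]
    abel
  refine ⟨e, ?_⟩
  rw [pow_succ', e, ha]
  simp only [add_mul, mul_add, mul_assoc, h1 1 0, h1 2 0, h1 3 0, h1 2 1, h1 3 1, h1 3 2, h3 1 0, h3 2 0, h3 3 0,
    h3 2 1, h3 3 1, h3 3 2, h2, h4, mul_neg, neg_neg, mul_zero, neg_zero, add_zero, zero_add]

theorem resc_a0 (x : Site) : ((a0M id x : Ev HE) : Gr HE) = th (x, (0 : Fin 4)) * th (x, 1) + th (x, 0) * th (x, 2) +
    th (x, 0) * th (x, 3) + th (x, 1) * th (x, 2) + th (x, 1) * th (x, 3) + th (x, 2) * th (x, 3) := by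
  simp [a0M, Fin.sum_univ_four, th2, add_assoc]

theorem resc_four {I : Type} {g : I → I → ℝ} (hg : Antisym g) (i j k l : I) :
    gauss g (th i * (th j * (th k * th l))) = g i j * g k l - g i k * g j l + g i l * g j k := by
  have e : ∀ (d : Module.Dual ℝ (GV I)) (i : I) (z : Gr I),
      ctr d (th i * z) = d (Finsupp.single i 1) • z - th i * ctr d z := fun d i z => ctr_iota_mul d _ z
  have e1 := e (bil g (Finsupp.single i 1)) l 1
  rw [mul_one, ctr_one, mul_zero, sub_zero] at e1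
  refine (gauss_iota_mul g _ _).trans ?_
  change gauss g (ctr _ _) = _
  rw [e, e, e1]
  simp only [hg.bil_single, mul_sub, mul_smul_comm, mul_one, map_sub, map_smul, gauss_th_th hg, smul_eq_mul]
  ring

/-- one site: `a = a0M id x` has `a * a = 2 θ₀θ₁θ₂θ₃`, `a ^ 3 = 0`, `gauss g0 a = 2`, `gauss g0 (θ₀θ₁θ₂θ₃) = 1` (`gauss_iota_mul`, or `gauss_exp_sq` is NOT enough for the sign) -/
theorem gauss_exp_a0_one (x : Site) (c : ℝ) :
    gauss g0 ((exA augE (c • a0M id x) : Ev HE) : Gr HE) = (1 + c) ^ 2 := by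
  obtain ⟨h2, h3⟩ := resc_ring (fun α => th (x, α)) (fun _ _ => th_swap _ _) (fun _ => th_sq _) (resc_a0 x)
  rw [coe_exA _ (by rw [map_smul, augE_a0M, smul_zero]), Subalgebra.coe_smul,
    exp_real (k := 3) (by rw [smul_pow, h3, smul_zero])]
  simp only [Finset.sum_range_succ, Finset.sum_range_zero, zero_add, pow_zero, pow_one, smul_pow, h2, map_add,
    map_smul, gauss_one, resc_four antisym_g0, smul_eq_mul]
  rw [resc_a0]
  simp only [map_add, gauss_th_th antisym_g0]
  simp [g0, G0]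
  ring

theorem resc_a0_mem {S : Set HE} {x : Site} (h : ∀ α, (x, α) ∈ S) : ((a0M id x : Ev HE) : Gr HE) ∈ supA S := by
  have e : ∀ α β, th (x, α) * th (x, β) ∈ supA S := fun α β =>
    Subalgebra.mul_mem _ (th_mem_supA (h α)) (th_mem_supA (h β))
  rw [resc_a0]
  exact add_mem (add_mem (add_mem (add_mem (add_mem (e _ _) (e _ _)) (e _ _)) (e _ _)) (e _ _)) (e _ _)

theorem resc_aug (W : Finset Site) (c : Site → ℝ) : augE (∑ x ∈ W, c x • a0M id x : Ev HE) = 0 := by
  rw [map_sum]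
  exact Finset.sum_eq_zero fun x _ => by rw [map_smul, augE_a0M, smul_zero]

/-- induction on `W`: `exA_add`, `mu_mul` with `S = {i | i.1 = x}`, `T = {i | i.1 ≠ x}` (`aug` is multiplicative), `exp_mem_supA` -/
theorem gauss_exp_a0 (W : Finset Site) (c : Site → ℝ) :
    gauss g0 ((exA augE (∑ x ∈ W, c x • a0M id x) : Ev HE) : Gr HE) = ∏ x ∈ W, (1 + c x) ^ 2 := by
  induction W using Finset.induction_on with
  | empty =>
    rw [Finset.sum_empty, Finset.prod_empty, coe_exA _ (map_zero _), Subalgebra.coe_zero, IsNilpotent.exp_zero,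
      gauss_one]
  | insert x W hx ih =>
    have h1 : augE (c x • a0M id x : Ev HE) = 0 := by rw [map_smul, augE_a0M, smul_zero]
    rw [Finset.sum_insert hx, Finset.prod_insert hx, exA_add _ _ h1 (resc_aug W c), Subalgebra.coe_mul, ← ih,
      ← gauss_exp_a0_one x, gauss_apply, gauss_apply, gauss_apply,
      mu_mul (S := {i | i.1 = x}) (T := {i | i.1 ≠ x}), map_mul]
    · intro i hi j hj
      have h : i.1 ≠ j.1 := fun e => hj (e.symm.trans hi)
      exact ⟨if_neg h, if_neg h.symm⟩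
    · rw [coe_exA _ h1]
      exact exp_mem_supA (Subalgebra.smul_mem _ (resc_a0_mem fun _ => rfl) _)
    · rw [coe_exA _ (resc_aug W c), AddSubmonoidClass.coe_finsetSum]
      refine exp_mem_supA (Subalgebra.sum_mem _ fun y hy => Subalgebra.smul_mem _ (resc_a0_mem fun _ => ?_) _)
      rintro rfl
      exact hx hy

theorem resc_aug_gmap {I J : Type} (T : GV I →ₗ[ℝ] GV J) (x : Gr I) : aug (gmap T x) = aug x := by
  have : (aug (I := J)).comp (gmap T) = aug := by
    refine ExteriorAlgebra.hom_ext (LinearMap.ext fun u => ?_)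
    simp [gmap]
  exact DFunLike.congr_fun this x

/-- `gauss_change (hes W) (hes W)` with `a₀ = a0K 1`, `q = a0K (ρ² - 1)`, `g i j = g0 i j / (ρ i.1 * ρ j.1)`; `quad_a0K`, `coe_exA`;
then `gauss g (gmap (scl ρ) Y) = gauss g0 Y` by `gmap_mu` (with `S = univ`) and `aug ∘ gmap = aug`. -/
theorem gauss_rescale (W : Finset Site) (ρ : Site → ℝ) (hρ : ∀ x, ρ x ≠ 0) {Y : Gr HE} (hY : Y ∈ supA (hes W : Set HE)) :
    gauss g0 (((exA augE (∑ x ∈ W, (ρ x ^ 2 - 1) • a0M id x) : Ev HE) : Gr HE) * gmap (scl ρ) Y) =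
      (∏ x ∈ W, ρ x ^ 4) * gauss g0 Y := by
  have hg : Antisym fun i j : HE => g0 i j / (ρ i.1 * ρ j.1) := fun i j => by
    simp only
    rw [antisym_g0 i j, mul_comm, neg_div]
  have h1 := gauss_change (hes W) (hes W) subset_rfl (antisym_a0K 1) (antisym_a0K fun x => ρ x ^ 2 - 1) antisym_g0 hg
    (fun i hi k _ => by convert sum_a0K_g0 W hi k) (fun i hi k _ => by
      have e : ∀ j, (a0K 1 i j + a0K (fun x => ρ x ^ 2 - 1) i j) * (g0 k j / (ρ k.1 * ρ j.1)) =
          ρ i.1 / ρ k.1 * (a0K 1 i j * g0 k j) := fun j => by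
        unfold a0K
        split_ifs with h
        · rw [← h]
          have := hρ i.1
          have := hρ k.1
          simp only [Pi.one_apply]
          field_simp
          ring
        · simp
      rw [Finset.sum_congr rfl fun j _ => e j, ← Finset.mul_sum, sum_a0K_g0 W hi k]
      split_ifs with h
      · rw [h, div_self (hρ _), mul_one]
      · rw [mul_zero]) (gmap_scl_mem ρ hY)
  have h2 := gauss_exp_a0 W fun x => ρ x ^ 2 - 1
  rw [coe_exA _ (resc_aug W _)] at h2 ⊢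
  rw [quad_a0K] at h1
  rw [h1, h2, gauss_apply, gauss_apply, ← gmap_mu (scl ρ) (g := g0) (S := Set.univ) _ (mem_supA_univ Y), resc_aug_gmap]
  · congr 1
    exact Finset.prod_congr rfl fun x _ => by ring
  · intro i _ j _
    rw [resc_single, resc_single, map_smul, map_smul, LinearMap.smul_apply, hg.bil_single, antisym_g0.bil_single]
    have := hρ i.1
    have := hρ j.1
    simp only [smul_eq_mul]
    field_simp

end Crest.Agent.R165.BA
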