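import Crest.Agent.R165.A.Sign

/-! # R165/A: the contour partition function as a Gaussian integral (owner helper66) -/

set_option autoImplicit false
noncomputable section
open Classical Crest.ProbabilityR.IsingModel

namespace Crest.Agent.R165.BA

/-- `Finset.prod_one_add`/`prod_add`, linearity of `gauss`, `gauss_contour isKer_g0`, `Finset.sum_filter` -/
theorem gauss_prod_edges (E : Finset Edge) (w : Edge → ℝ) :
    gauss g0 ((∏ e ∈ E, (1 + w e • eM id e) : Ev HE) : Gr HE) = Zc E w := by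
  rw [Finset.prod_one_add, AddSubmonoidClass.coe_finsetSum, map_sum, Zc, Finset.sum_filter]
  refine Finset.sum_congr rfl fun γ _ => ?_
  rw [Finset.prod_smul, Subalgebra.coe_smul, map_smul, gauss_contour isKer_g0]
  split_ifs <;> simp

theorem zc_ends (E : Finset Edge) : ∃ W : Finset Site, ∀ e ∈ E, e.1 ∈ W ∧ e.1 + uv e.2 ∈ W :=
  ⟨E.image Prod.fst ∪ E.image fun e => e.1 + uv e.2, fun _ he =>
    ⟨Finset.mem_union_left _ (Finset.mem_image_of_mem _ he), Finset.mem_union_right _ (Finset.mem_image_of_mem _ he)⟩⟩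

theorem zc_exp (E : Finset Edge) (w : Edge → ℝ) (hw : ∀ e, e ∉ E → w e = 0) (W : Finset Site)
    (hW : ∀ e ∈ E, e.1 ∈ W ∧ e.1 + uv e.2 ∈ W) :
    IsNilpotent.exp (quad (hes W) (qM w)) = ((∏ e ∈ E, (1 + w e • eM id e) : Ev HE) : Gr HE) := by
  rw [quad_qM E w hw W hW, ← coe_exA _ (by simp [augE_eM]), exA_edges]

theorem zc_opp {E : Finset Edge} {w : Edge → ℝ} (hw : ∀ e, e ∉ E → w e = 0) {W : Finset Site}
    (hW : ∀ e ∈ E, e.1 ∈ W ∧ e.1 + uv e.2 ∈ W) (i : HE) (h : w (edgeOf i.1 i.2) ≠ 0) : i.1 + dv i.2 ∈ W := by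
  obtain ⟨h1, h2⟩ := hW _ (by_contra fun he => h (hw _ he))
  rcases oppHE_cases i with ⟨-, h3, -⟩ | ⟨-, h3, -⟩
  · exact (congrArg (fun j : HE => j.1 ∈ W) h3).mp h2
  · exact (congrArg (fun j : HE => j.1 ∈ W) h3).mp h1

/-- **change of measure from `g0` to `g`.** Let `w₁ e = if e ∈ E₁ then w e else 0`, `W` = sites of `s'` and both ends of the edges of `E₁`.
`gauss_change (hes W) s'` with `a₀ = a0K 1`, `q = qM w₁`; `h₀ = sum_a0K_g0`; `h₁`: `sum_aM w₁` and `opA w₁ (g k) i = opA w (g k) i` for `k ∈ s'`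
(`opA_eq`, `oppHE_cases`, `h`); `exp (quad ..) = ∏ (1 + w e • eM id e)` by `quad_qM`, `coe_exA`, `exA_edges`; `gauss_prod_edges`. -/
theorem gauss_edge_change {w : Edge → ℝ} {g : HE → HE → ℝ} (hg : IsKer w g) (E₁ : Finset Edge) (s' : Finset HE)
    (h : ∀ e, e ∉ E₁ → w e ≠ 0 → ∀ k ∈ s', g k (he0 e) = 0 ∧ g k (he1 e) = 0) {X : Gr HE} (hX : X ∈ supA (s' : Set HE)) :
    gauss g0 (((∏ e ∈ E₁, (1 + w e • eM id e) : Ev HE) : Gr HE) * X) = Zc E₁ w * gauss g X := by
  obtain ⟨W, hW, hs⟩ : ∃ W : Finset Site, (∀ e ∈ E₁, e.1 ∈ W ∧ e.1 + uv e.2 ∈ W) ∧ s' ⊆ hes W :=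
    ⟨s'.image Prod.fst ∪ (E₁.image Prod.fst ∪ E₁.image fun e => e.1 + uv e.2), fun e he =>
      ⟨Finset.mem_union_right _ (Finset.mem_union_left _ (Finset.mem_image_of_mem _ he)),
        Finset.mem_union_right _ (Finset.mem_union_right _ (Finset.mem_image_of_mem _ he))⟩,
      fun k hk => Finset.mem_product.2 ⟨Finset.mem_union_left _ (Finset.mem_image_of_mem _ hk), Finset.mem_univ _⟩⟩
  have hw : ∀ e, e ∉ E₁ → (if e ∈ E₁ then w e else 0) = 0 := fun e he => if_neg he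
  have key := gauss_change (hes W) s' hs (antisym_a0K 1) (antisym_qM fun e => if e ∈ E₁ then w e else 0) antisym_g0 hg.1
    (fun i hi k _ => by convert sum_a0K_g0 W hi k) (fun i hi k hk => .trans ?_ (by convert hg.2 k i)) hX
  · rwa [zc_exp E₁ _ hw W hW, Finset.prod_congr rfl fun e he => by rw [if_pos he], gauss_prod_edges] at key
  · rw [sum_aM _ W _ (Finset.mem_product.1 hi).1 (zc_opp hw hW i), opA_eq, opA_eq]
    congr 1
    by_cases he : edgeOf i.1 i.2 ∈ E₁
    · rw [if_pos he]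
    · rw [if_neg he]
      by_cases h0 : w (edgeOf i.1 i.2) = 0
      · rw [h0]
      · obtain ⟨h1, h2⟩ := h _ he h0 k hk
        rcases oppHE_cases i with ⟨-, h3, -⟩ | ⟨-, h3, -⟩
        · rw [← h3, h2, mul_zero, mul_zero]
        · rw [← h3, h1, mul_zero, mul_zero]

/-- `e ∉ E`: trivial. `e ∈ E`: `∏ (1 + w' E) = ∏ (1 + w E) * (1 - 2 w e • eM id e)` (`eM_sq`), `gauss_edge_change` with `s' = {he0 e, he1 e}`, `gauss_th_th` -/
theorem _root_.Crest.Agent.R165.Zc_flip {E : Finset Edge} {w : Edge → ℝ} (hw : ∀ e, e ∉ E → w e = 0) {g : HE → HE → ℝ} (hg : IsKer w g)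
    (hf : FinRow g) (e : Edge) :
    Zc E (fun e' => (if e' = e then -1 else 1) * w e') = Zc E w * (1 - 2 * w e * g (he0 e) (he1 e)) := by
  by_cases he : e ∈ E
  · have hX : (((1 - (2 * w e) • eM id e : Ev HE)) : Gr HE) ∈ supA (({he0 e, he1 e} : Finset HE) : Set HE) := by
      rw [AddSubgroupClass.coe_sub, Subalgebra.coe_smul]
      exact sub_mem (one_mem _) (Subalgebra.smul_mem _ (eM_mem (by simp) (by simp)) _)
    have key := gauss_edge_change hg E {he0 e, he1 e} (fun e' he' h0 => (h0 (hw e' he')).elim) hX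
    have e1 : (∏ e' ∈ E, (1 + ((if e' = e then -1 else 1) * w e') • eM id e') : Ev HE) =
        (∏ e' ∈ E, (1 + w e' • eM id e')) * (1 - (2 * w e) • eM id e) := by
      rw [← Finset.mul_prod_erase E _ he, ← Finset.mul_prod_erase E _ he, mul_right_comm, if_pos rfl]
      congr 1
      · rw [add_mul, one_mul, mul_sub, mul_one, smul_mul_smul_comm, eM_sq, smul_zero, sub_zero]
        module
      · exact Finset.prod_congr rfl fun e' he' => by rw [if_neg (Finset.ne_of_mem_erase he'), one_mul]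
    rw [← gauss_prod_edges, e1, MulMemClass.coe_mul, key, AddSubgroupClass.coe_sub, Subalgebra.coe_smul, map_sub, map_smul,
      coe_eM, gauss_th_th hg.1, OneMemClass.coe_one, gauss_one, smul_eq_mul]
  · rw [hw e he, mul_zero, zero_mul, sub_zero, mul_one]
    congr 1
    funext e'
    split_ifs with h
    · rw [h, hw e he, mul_zero]
    · rw [one_mul]

/-- for even `γ`: `∏_{e ∈ γ} σ e.1 * σ (e.1 + uv e.2) = ∏_{x ∈ W} σ x ^ deg x = 1` (`prod_he` with `f i = σ i.1`, `Finset.prod_product`) -/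
theorem _root_.Crest.Agent.R165.Zc_gauge (E : Finset Edge) (w : Edge → ℝ) {σ : Site → ℝ} (hσ : IsSign σ) : Zc E (gaugeW σ w) = Zc E w := by
  refine Finset.sum_congr rfl fun γ hγ => ?_
  obtain ⟨W, hW⟩ := zc_ends γ
  have h1 := prod_he W γ hW fun i => σ i.1
  rw [Finset.prod_filter, Finset.prod_product, Finset.prod_eq_one fun x _ => ?_] at h1
  · simp only [gaugeW]
    rw [Finset.prod_mul_distrib, show ∏ e ∈ γ, σ e.1 * σ (e.1 + uv e.2) = 1 from h1.symm, one_mul]
  · rw [← Finset.prod_filter (fun α => edgeOf x α ∈ γ) fun _ => σ x, Finset.prod_const]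
    obtain ⟨n, hn⟩ := (Finset.mem_filter.1 hγ).2 x
    rw [hn, pow_add, ← mul_pow, hσ.mul_self, one_pow]

/-- `gauss_exp_sq (hes W)` with `a₀ = a0K 1`, `q = qM w`; `det_a0K`, `aM_eq` -/
theorem _root_.Crest.Agent.R165.Zc_sq (E : Finset Edge) (w : Edge → ℝ) (hw : ∀ e, e ∉ E → w e = 0) (W : Finset Site)
    (hW : ∀ e ∈ E, e.1 ∈ W ∧ e.1 + uv e.2 ∈ W) :
    Zc E w ^ 2 = (Matrix.of fun i j : ↥(W ×ˢ (Finset.univ : Finset (Fin 4))) =>
      opA w (fun k => if k = (j : HE) then 1 else 0) i).det := by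
  have key := gauss_exp_sq (hes W) (antisym_a0K 1) (antisym_qM w) antisym_g0 fun i hi k _ => by
    convert sum_a0K_g0 W hi k
  rw [zc_exp E w hw W hW, gauss_prod_edges] at key
  simp only [aM_eq]
  rw [← mul_one (Zc E w ^ 2), ← det_a0K W]
  convert key

/-- `Zc_sq` with `W` = ends of `E`; the matrix has the right inverse `fun j k => g k j` (`sum_aM`) -/
theorem _root_.Crest.Agent.R165.Zc_ne_zero {E : Finset Edge} {w : Edge → ℝ} (hw : ∀ e, e ∉ E → w e = 0) {g : HE → HE → ℝ} (hg : IsKer w g)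
    (hf : FinRow g) : Zc E w ≠ 0 := by
  obtain ⟨W, hW⟩ := zc_ends E
  intro h0
  have h1 := Zc_sq E w hw W hW
  rw [h0, zero_pow two_ne_zero] at h1
  refine Matrix.det_ne_zero_of_right_inverse (B := Matrix.of fun j k : ↥(hes W) => g k j) ?_ h1.symm
  ext i k
  simp only [Matrix.mul_apply, Matrix.of_apply, aM_eq, Matrix.one_apply, Subtype.ext_iff]
  rw [Finset.sum_coe_sort (hes W) fun j => (a0K 1 i j + qM w i j) * g k j,
    sum_aM _ W _ (Finset.mem_product.1 i.2).1 (zc_opp hw hW i), hg.2]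

end Crest.Agent.R165.BA
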