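import Crest.Agent.R165.A.Hat
import Crest.Agent.R165.A.Zc
import Crest.Agent.R165.A.Resc
import Crest.Agent.R165.A.Part

/-! # R165/A: the representation theorem (owner helper66, proved by the owner) -/

set_option autoImplicit false
noncomputable section
open Classical Crest.ProbabilityR.IsingModel

namespace Crest.Agent.R165.BA

theorem rho_edgeOf (ρ : Site → ℝ) (x : Site) (α : Fin 4) :
    ρ x * ρ (x + dv α) = ρ (edgeOf x α).1 * ρ ((edgeOf x α).1 + uv (edgeOf x α).2) := by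
  fin_cases α
  · simp [edgeOf, dv, uv]
  · simp [edgeOf, dv, uv]
  · have : x + dv 2 = x - (1, 0) := by simp [dv, sub_eq_add_neg]
    simp [edgeOf, uv, this, mul_comm]
  · have : x + dv 3 = x - (0, 1) := by simp [dv, sub_eq_add_neg]
    simp [edgeOf, uv, this, mul_comm]

theorem ends_mem {Λ Λ' : Finset Site} (hΛ : ∀ x ∈ Λ, x ∈ Λ' ∧ ∀ α, x + dv α ∈ Λ') (e : Edge)
    (h : e.1 ∈ Λ ∨ e.1 + uv e.2 ∈ Λ) : e.1 ∈ Λ' ∧ e.1 + uv e.2 ∈ Λ' := by
  obtain ⟨x, j⟩ := e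
  rcases h with h | h
  · refine ⟨(hΛ _ h).1, ?_⟩
    fin_cases j
    · exact (hΛ _ h).2 0
    · exact (hΛ _ h).2 1
  · refine ⟨?_, (hΛ _ h).1⟩
    fin_cases j
    · have := (hΛ _ h).2 2
      simpa [uv, dv, add_assoc, Prod.mk_zero_zero] using this
    · have := (hΛ _ h).2 3
      simpa [uv, dv, add_assoc, Prod.mk_zero_zero] using this

theorem sum_pLoc {w w' : Edge → ℝ} (Λ Λ' W : Finset Site) (hΛ : ∀ x ∈ Λ, x ∈ Λ' ∧ ∀ α, x + dv α ∈ Λ') (hW : Λ ⊆ W)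
    (r : ℝ) (hw : ∀ e : Edge, ¬ (e.1 ∈ Λ ∧ e.1 + uv e.2 ∈ Λ) → w' e = w e) (E₁ : Finset Edge)
    (hE₁' : ∀ x ∈ Λ', ∀ α, edgeOf x α ∉ E₁ → w (edgeOf x α) = 0 ∧ w' (edgeOf x α) = 0)
    (ρ : Site → ℝ) (hρ : ρ = fun y => if y ∈ Λ then r else 1) :
    ∑ x ∈ Λ', pLoc id ρ w w' x = ∑ x ∈ W, (ρ x ^ 2 - 1) • a0M id x +
      ∑ e ∈ E₁, (ρ e.1 * ρ (e.1 + uv e.2) * w' e - w e) • eM id e := by
  have h0 : ∀ x, x ∉ Λ → (ρ x ^ 2 - 1) • a0M (id : HE → HE) x = 0 := by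
    intro x hx; simp [hρ, hx]
  have hc : ∀ e : Edge, ¬ (e.1 ∈ Λ' ∧ e.1 + uv e.2 ∈ Λ') → ρ e.1 * ρ (e.1 + uv e.2) * w' e - w e = 0 := by
    intro e he
    have h1 : e.1 ∉ Λ := fun h => he (ends_mem hΛ e (Or.inl h))
    have h2 : e.1 + uv e.2 ∉ Λ := fun h => he (ends_mem hΛ e (Or.inr h))
    simp [hρ, h1, h2, hw e (fun h => h1 h.1)]
  unfold pLoc
  rw [Finset.sum_add_distrib]
  congr 1
  · rw [← Finset.sum_subset (fun x hx => (hΛ x hx).1) (fun x _ hx => h0 x hx),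
      ← Finset.sum_subset hW (fun x _ hx => h0 x hx)]
  · set c : Edge → ℝ := fun e => ρ e.1 * ρ (e.1 + uv e.2) * w' e - w e with hcd
    set γ := E₁.filter (fun e => e.1 ∈ Λ' ∧ e.1 + uv e.2 ∈ Λ') with hγ
    have e1 : ∑ x ∈ Λ', ∑ α : Fin 4, ((1 / 2) * (ρ x * ρ (x + dv α) * w' (edgeOf x α) - w (edgeOf x α))) •
        eM (id : HE → HE) (edgeOf x α) =
        ∑ i ∈ hes Λ', ((1 / 2) * c (edgeOf i.1 i.2)) • eM (id : HE → HE) (edgeOf i.1 i.2) := by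
      rw [Finset.sum_product]
      refine Finset.sum_congr rfl fun x _ => Finset.sum_congr rfl fun α _ => ?_
      rw [rho_edgeOf]
    rw [e1, ← Finset.sum_filter_of_ne (p := fun i : HE => edgeOf i.1 i.2 ∈ γ),
      sum_he Λ' γ (fun e he => (Finset.mem_filter.1 he).2)
        (fun i => ((1 / 2) * c (edgeOf i.1 i.2)) • eM (id : HE → HE) (edgeOf i.1 i.2))]
    · simp only [edgeOf_he0, edgeOf_he1]
      rw [hγ, Finset.sum_filter]
      refine Finset.sum_congr rfl fun e _ => ?_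
      split_ifs with h
      · rw [← add_smul]; congr 1; simp only [hcd]; ring
      · rw [hc e h, zero_smul]
    · intro i hi hne
      by_contra hn
      apply hne
      have : c (edgeOf i.1 i.2) = 0 := by
        by_cases hE : edgeOf i.1 i.2 ∈ E₁
        · exact hc _ (fun h => hn (Finset.mem_filter.2 ⟨hE, h⟩))
        · have := hE₁' i.1 (Finset.mem_product.1 hi).1 i.2 hE
          simp [hcd, this.1, this.2]
      rw [this, mul_zero, zero_smul]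

/-- rescaling on the even subalgebra -/
def sE (ρ : Site → ℝ) : Ev HE →ₐ[ℝ] Ev HE :=
  ((gmap (scl ρ)).comp (Subalgebra.val _)).codRestrict _ fun a => gmap_mem_even _ a

theorem coe_sE (ρ : Site → ℝ) (a : Ev HE) : (sE ρ a : Gr HE) = gmap (scl ρ) (a : Gr HE) := rfl

theorem sE_eM (ρ : Site → ℝ) (e : Edge) : sE ρ (eM id e) = (ρ e.1 * ρ (e.1 + uv e.2)) • eM id e :=
  Subtype.ext (gmap_scl_eM ρ e)

theorem augE_pLoc {I : Type} (ι : HE → I) (ρ : Site → ℝ) (w w' : Edge → ℝ) (x : Site) : augE (pLoc ι ρ w w' x) = 0 := by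
  simp [pLoc, augE_eM, augE_a0M]

theorem a0M_mem {S : Set HE} {x : Site} (h : ∀ α, (x, α) ∈ S) : ((a0M id x : Ev HE) : Gr HE) ∈ supA S := by
  unfold a0M
  push_cast
  refine Subalgebra.sum_mem _ fun α _ => Subalgebra.sum_mem _ fun β _ => ?_
  split_ifs
  · exact mul_mem (th_mem_supA (h α)) (th_mem_supA (h β))
  · exact zero_mem _

theorem he_edgeOf_box (x : Site) (α : Fin 4) : (he0 (edgeOf x α)).1 ∈ box x 1 ∧ (he1 (edgeOf x α)).1 ∈ box x 1 := by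
  fin_cases α <;> simp [he0, he1, edgeOf, uv, box] <;> omega

theorem self_mem_box (x : Site) : x ∈ box x 1 := by
  simp [box]

theorem rep_scalar {w w' : Edge → ℝ} {g : HE → HE → ℝ}
    (hg : IsKer w g) (Λ Λ' : Finset Site) (hΛ : ∀ x ∈ Λ, x ∈ Λ' ∧ ∀ α, x + dv α ∈ Λ') {r : ℝ} (hr : 0 < r)
    (hw : ∀ e : Edge, ¬ (e.1 ∈ Λ ∧ e.1 + uv e.2 ∈ Λ) → w' e = w e) (E₁ : Finset Edge)
    (hE₁ : ∀ e, e ∉ E₁ → w e ≠ 0 → ∀ x ∈ Λ'.biUnion (box · 1), ∀ α, g (x, α) (he0 e) = 0 ∧ g (x, α) (he1 e) = 0)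
    (hE₁' : ∀ x ∈ Λ', ∀ α, edgeOf x α ∉ E₁ → w (edgeOf x α) = 0 ∧ w' (edgeOf x α) = 0)
    (T : Finset Edge) (hT : ∀ e ∈ T, e.1 ∈ Λ ∧ e.1 + uv e.2 ∈ Λ) :
    gauss g0 (((∏ e ∈ E₁, (1 + w' e • eM id e)) * ∏ e ∈ T, w' e • eM id e : Ev HE) : Gr HE) =
      (r ^ (-(4 * Λ.card : ℤ)) * Zc E₁ w) *
        gauss g ((exA augE (∑ x ∈ Λ', pLoc id (fun y => if y ∈ Λ then r else 1) w w' x) *
          ∏ e ∈ T, (r ^ 2 * w' e) • eM id e : Ev HE) : Gr HE) := by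
  obtain ⟨ρ, hρ⟩ : ∃ ρ : Site → ℝ, ρ = fun y => if y ∈ Λ then r else 1 := ⟨_, rfl⟩
  rw [← hρ]
  obtain ⟨W, hWΛ, hWE⟩ : ∃ W : Finset Site, Λ ⊆ W ∧ ∀ e ∈ E₁, e.1 ∈ W ∧ e.1 + uv e.2 ∈ W := by
    refine ⟨Λ ∪ E₁.biUnion fun e => {e.1, e.1 + uv e.2}, Finset.subset_union_left, fun e he => ⟨?_, ?_⟩⟩
    · exact Finset.mem_union_right _ (Finset.mem_biUnion.2 ⟨e, he, by simp⟩)
    · exact Finset.mem_union_right _ (Finset.mem_biUnion.2 ⟨e, he, by simp⟩)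
  have hP0 : augE (∑ x ∈ Λ', pLoc id ρ w w' x) = 0 := by
    rw [map_sum]; exact Finset.sum_eq_zero fun x _ => augE_pLoc _ _ _ _ _
  have hN : ∀ x ∈ Λ', ∀ y ∈ box x 1, ∀ α : Fin 4, ((y, α) : HE) ∈ ((hes (Λ'.biUnion (box · 1)) : Finset HE) : Set HE) :=
    fun x hx y hy α => Finset.mem_coe.2 (Finset.mem_product.2 ⟨Finset.mem_biUnion.2 ⟨x, hx, hy⟩, Finset.mem_univ _⟩)
  have hX : ((exA augE (∑ x ∈ Λ', pLoc id ρ w w' x) * ∏ e ∈ T, (r ^ 2 * w' e) • eM id e : Ev HE) : Gr HE) ∈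
      supA ((hes (Λ'.biUnion (box · 1)) : Finset HE) : Set HE) := by
    rw [MulMemClass.coe_mul]
    refine mul_mem ?_ (prod_mem_supA _ _ fun e he => ?_)
    · rw [coe_exA _ hP0]
      refine exp_mem_supA ?_
      unfold pLoc
      simp only [AddSubmonoidClass.coe_finsetSum, AddMemClass.coe_add, SetLike.val_smul]
      refine Subalgebra.sum_mem _ fun x hx => add_mem (Subalgebra.smul_mem _ (a0M_mem fun α => ?_) _)
        (Subalgebra.sum_mem _ fun α _ => Subalgebra.smul_mem _ (eM_mem ?_ ?_) _)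
      · exact hN x hx x (self_mem_box x) α
      · exact hN x hx _ (he_edgeOf_box x α).1 _
      · exact hN x hx _ (he_edgeOf_box x α).2 _
    · refine Subalgebra.smul_mem _ (eM_mem ?_ ?_) _
      · exact hN _ (hΛ _ (hT e he).1).1 _ (self_mem_box _) _
      · exact hN _ (hΛ _ (hT e he).2).1 _ (self_mem_box _) _
  have h1 := gauss_edge_change hg E₁ (hes (Λ'.biUnion (box · 1)))
    (fun e he hwe k hk => hE₁ e he hwe k.1 (Finset.mem_product.1 hk).1 k.2) hX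
  have hY : (((∏ e ∈ E₁, (1 + w' e • eM id e)) * ∏ e ∈ T, w' e • eM id e : Ev HE) : Gr HE) ∈
      supA ((hes W : Finset HE) : Set HE) := by
    have hh : ∀ y ∈ W, ∀ α : Fin 4, ((y, α) : HE) ∈ ((hes W : Finset HE) : Set HE) :=
      fun y hy α => Finset.mem_coe.2 (Finset.mem_product.2 ⟨hy, Finset.mem_univ _⟩)
    rw [MulMemClass.coe_mul]
    refine mul_mem (prod_mem_supA _ _ fun e he => ?_) (prod_mem_supA _ _ fun e he => ?_)
    · exact add_mem (one_mem _) (Subalgebra.smul_mem _ (eM_mem (hh _ (hWE e he).1 _) (hh _ (hWE e he).2 _)) _)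
    · exact Subalgebra.smul_mem _ (eM_mem (hh _ (hWΛ (hT e he).1) _) (hh _ (hWΛ (hT e he).2) _)) _
  have hρ0 : ∀ x, ρ x ≠ 0 := by
    intro x; rw [hρ]; dsimp only; split_ifs
    · exact hr.ne'
    · exact one_ne_zero
  have h2 := gauss_rescale W ρ hρ0 hY
  have hA0 : augE (∑ x ∈ W, (ρ x ^ 2 - 1) • a0M (id : HE → HE) x) = 0 := by simp [augE_a0M]
  have hQ0 : ∀ c : Edge → ℝ, augE (∑ e ∈ E₁, c e • eM (id : HE → HE) e) = 0 := by intro c; simp [augE_eM]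
  have h3 : (∏ e ∈ E₁, (1 + w e • eM id e) : Ev HE) *
      (exA augE (∑ x ∈ Λ', pLoc id ρ w w' x) * ∏ e ∈ T, (r ^ 2 * w' e) • eM id e) =
      exA augE (∑ x ∈ W, (ρ x ^ 2 - 1) • a0M (id : HE → HE) x) *
        sE ρ ((∏ e ∈ E₁, (1 + w' e • eM id e)) * ∏ e ∈ T, w' e • eM id e) := by
    have e1 : sE ρ (∏ e ∈ E₁, (1 + w' e • eM id e)) =
        exA augE (∑ e ∈ E₁, (ρ e.1 * ρ (e.1 + uv e.2) * w' e) • eM (id : HE → HE) e) := by
      rw [exA_edges, map_prod]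
      refine Finset.prod_congr rfl fun e _ => ?_
      rw [map_add, map_one, map_smul, sE_eM, smul_smul, mul_comm (w' e)]
    have e2 : sE ρ (∏ e ∈ T, w' e • eM id e) = ∏ e ∈ T, (r ^ 2 * w' e) • eM (id : HE → HE) e := by
      rw [map_prod]
      refine Finset.prod_congr rfl fun e he => ?_
      rw [map_smul, sE_eM, smul_smul]
      congr 1
      simp only [hρ, if_pos (hT e he).1, if_pos (hT e he).2]
      ring
    rw [map_mul, e1, e2, ← mul_assoc, ← mul_assoc, ← exA_edges, ← exA_add _ _ (hQ0 _) hP0, ← exA_add _ _ hA0 (hQ0 _),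
      sum_pLoc Λ Λ' W hΛ hWΛ r hw E₁ hE₁' ρ hρ]
    congr 2
    rw [add_left_comm, ← Finset.sum_add_distrib]
    congr 1
    refine Finset.sum_congr rfl fun e _ => ?_
    rw [← add_smul]; congr 1; ring
  have h4 : ∏ x ∈ W, ρ x ^ 4 = r ^ (4 * Λ.card) := by
    rw [← Finset.prod_subset hWΛ (fun x _ hx => by simp [hρ, hx]),
      Finset.prod_congr rfl (g := fun _ => r ^ 4) (fun x hx => by simp [hρ, hx]), Finset.prod_const, ← pow_mul]
  rw [← MulMemClass.coe_mul, h3, MulMemClass.coe_mul, coe_sE, h2, h4] at h1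
  rw [mul_assoc, ← h1, ← mul_assoc, zpow_neg]
  have : (r ^ (4 * Λ.card : ℤ)) = r ^ (4 * Λ.card) := by norm_cast
  rw [this, inv_mul_cancel₀ (pow_ne_zero _ hr.ne'), one_mul]

/-- **representation theorem.** Reference weights `w` with kernel `g`, physical weights `w'`, rescaling by `r` on `Λ`.
`F` takes values in the even algebra generated by the extra generators (those outside the range of `ι`), and the identity
holds in that algebra: `muE` integrates the half-edge generators, `Φ` is the algebra map killing them. -/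
theorem _root_.Crest.Agent.R165.rep_general {I : Type} (ι : HE → I) (hι : Function.Injective ι) {w w' : Edge → ℝ} {g : HE → HE → ℝ}
    (hg : IsKer w g) (Λ Λ' : Finset Site) (hΛ : ∀ x ∈ Λ, x ∈ Λ' ∧ ∀ α, x + dv α ∈ Λ') {r : ℝ} (hr : 0 < r)
    (hw : ∀ e : Edge, ¬ (e.1 ∈ Λ ∧ e.1 + uv e.2 ∈ Λ) → w' e = w e) (E₁ : Finset Edge)
    (hE₁ : ∀ e, e ∉ E₁ → w e ≠ 0 → ∀ x ∈ Λ'.biUnion (box · 1), ∀ α, g (x, α) (he0 e) = 0 ∧ g (x, α) (he1 e) = 0)
    (hE₁' : ∀ x ∈ Λ', ∀ α, edgeOf x α ∉ E₁ → w (edgeOf x α) = 0 ∧ w' (edgeOf x α) = 0)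
    (hfin : FinRow g) (E₀ : Finset Edge) (hE₀ : ∀ e ∈ E₀, e.1 ∈ Λ ∧ e.1 + uv e.2 ∈ Λ) (F : Cfg → Ev I)
    (hF : DependsOn F ↑E₀) (hFs : ∀ n, (F n : Gr I) ∈ supA (Set.range ι)ᶜ)
    (Φ : Ev I →ₐ[ℝ] Ev I)
    (hΦ : ∀ a : Ev I, (Φ a : Gr I) = gmap (Finsupp.lmapDomain ℝ ℝ id ∘ₗ
      (Finsupp.supported ℝ ℝ (Set.range ι)ᶜ).subtype ∘ₗ Finsupp.restrictDom ℝ ℝ (Set.range ι)ᶜ) a) :
    ∑ γ ∈ E₁.powerset.filter EvenSub, (∏ e ∈ γ, w' e) • F (ind γ) =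
      (r ^ (-(4 * Λ.card : ℤ)) * Zc E₁ w) •
        Φ (muE (extK ι g) (exA augE (∑ x ∈ Λ', pLoc ι (fun y => if y ∈ Λ then r else 1) w w' x) *
          hat (fun e => (r ^ 2 * w' e) • eM ι e) E₀ F)) := by
  have hc : ∀ T : Finset Edge, ((∑ U ∈ T.powerset, (-1) ^ (T.card - U.card) * F (ind U) : Ev I) : Gr I) ∈
      supA (Set.range ι)ᶜ := by
    intro T
    push_cast
    exact Subalgebra.sum_mem _ fun U _ => mul_mem (pow_mem (neg_mem (one_mem _)) _) (hFs _)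
  have hy : ∀ e, (w' e • eM ι e) * (w' e • eM ι e) = 0 := by
    intro e; rw [smul_mul_smul_comm, eM_sq, smul_zero]
  have hhat : hat (fun e => w' e • eM ι e) E₁ F = hat (fun e => w' e • eM ι e) E₀ F := by
    rw [← hat_congr _ (Finset.subset_union_left (s₂ := E₁)) hF, hat_drop _ (Finset.subset_union_right (s₁ := E₀))]
    intro e he hn
    have he0 : e ∈ E₀ := (Finset.mem_union.1 he).resolve_right hn
    have := hE₁' (R165.he0 e).1 (by exact (hΛ _ (hE₀ e he0).1).1) (R165.he0 e).2 (by rw [edgeOf_he0]; exact hn)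
    rw [edgeOf_he0] at this
    rw [this.2, zero_smul]
  have L1 : ∑ γ ∈ E₁.powerset.filter EvenSub, (∏ e ∈ γ, w' e) • F (ind γ) =
      Φ (muE (extK ι g0) (∑ γ ∈ E₁.powerset, F (ind γ) * ∏ e ∈ γ, w' e • eM ι e)) := by
    rw [map_sum, map_sum, Finset.sum_filter]
    refine Finset.sum_congr rfl fun γ _ => ?_
    have : ∏ e ∈ γ, w' e • eM ι e = iE ι ((∏ e ∈ γ, w' e) • ∏ e ∈ γ, eM id e) := by
      rw [map_smul, map_prod, ← Finset.prod_smul]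
      exact Finset.prod_congr rfl fun e _ => by rw [iE_eM]
    rw [this, part_gauss ι hι g0 Φ hΦ _ (hFs _), SetLike.val_smul, map_smul, gauss_contour isKer_g0]
    split_ifs <;> simp
  rw [L1, ← prod_mul_hat _ hy, hhat]
  have hP0 : augE (∑ x ∈ Λ', pLoc id (fun y => if y ∈ Λ then r else 1) w w' x) = 0 := by
    rw [map_sum]; exact Finset.sum_eq_zero fun x _ => augE_pLoc _ _ _ _ _
  have hP : exA augE (∑ x ∈ Λ', pLoc ι (fun y => if y ∈ Λ then r else 1) w w' x) =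
      iE ι (exA augE (∑ x ∈ Λ', pLoc id (fun y => if y ∈ Λ then r else 1) w w' x)) := by
    rw [iE_exA _ _ hP0, map_sum]
    simp only [iE_pLoc]
  rw [hP]
  unfold hat
  rw [Finset.mul_sum, Finset.mul_sum, map_sum, map_sum, map_sum, map_sum, Finset.smul_sum]
  refine Finset.sum_congr rfl fun T hT => ?_
  have hT' : ∀ e ∈ T, e.1 ∈ Λ ∧ e.1 + uv e.2 ∈ Λ := fun e he => hE₀ e (Finset.mem_powerset.1 hT he)
  have e1 : (∏ e ∈ E₁, (1 + w' e • eM ι e)) *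
      ((∑ U ∈ T.powerset, (-1) ^ (T.card - U.card) * F (ind U)) * ∏ e ∈ T, w' e • eM ι e) =
      (∑ U ∈ T.powerset, (-1) ^ (T.card - U.card) * F (ind U)) *
        iE ι ((∏ e ∈ E₁, (1 + w' e • eM id e)) * ∏ e ∈ T, w' e • eM id e) := by
    simp only [map_mul, map_prod, map_add, map_one, map_smul, iE_eM]
    ring
  have e2 : iE ι (exA augE (∑ x ∈ Λ', pLoc id (fun y => if y ∈ Λ then r else 1) w w' x)) *
      ((∑ U ∈ T.powerset, (-1) ^ (T.card - U.card) * F (ind U)) * ∏ e ∈ T, (r ^ 2 * w' e) • eM ι e) =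
      (∑ U ∈ T.powerset, (-1) ^ (T.card - U.card) * F (ind U)) *
        iE ι (exA augE (∑ x ∈ Λ', pLoc id (fun y => if y ∈ Λ then r else 1) w w' x) *
          ∏ e ∈ T, (r ^ 2 * w' e) • eM id e) := by
    simp only [map_mul, map_prod, map_smul, iE_eM]
    ring
  rw [e1, e2, part_gauss ι hι g0 Φ hΦ _ (hc T), part_gauss ι hι g Φ hΦ _ (hc T), smul_smul,
    rep_scalar hg Λ Λ' hΛ hr hw E₁ hE₁ hE₁' T hT']

end Crest.Agent.R165.BA
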