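import Crest.Agent.R165.Rep

/-! # R165/A: the symmetric extension `sB` (owner helper66) -/

set_option autoImplicit false
noncomputable section
open Classical Crest.ProbabilityR.IsingModel

namespace Crest.Agent.R165.BA

theorem edgeB0_bondEdge (z : Site) (j : Fin 2) : edgeB0 (bondEdge z j) = z := by
  fin_cases j <;> simp [edgeB0, bondEdge]

theorem edgeB1_bondEdge (z : Site) (j : Fin 2) : edgeB1 (bondEdge z j) = z + unitVec j := by
  obtain ⟨x, y⟩ := z
  fin_cases j <;> simp [edgeB1, bondEdge, unitVec]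

/-- every edge crosses a bond: `j = 1 - e.2` -/
theorem exists_bondEdge (e : Edge) : ∃ j, bondEdge (edgeB0 e) j = e := by
  obtain ⟨x, j⟩ := e
  fin_cases j
  · exact ⟨1, by simp [edgeB0, bondEdge]⟩
  · exact ⟨0, by simp [edgeB0, bondEdge]⟩

theorem bondEdge_inj {z z' : Site} {j j' : Fin 2} (h : bondEdge z j = bondEdge z' j') : z = z' ∧ j = j' := by
  refine ⟨by rw [← edgeB0_bondEdge z j, h, edgeB0_bondEdge], ?_⟩
  have h2 := congrArg Prod.snd h
  fin_cases j <;> fin_cases j' <;> simp [bondEdge] at h2 ⊢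

theorem spinSign_mul (a b : Bool) : spinSign a * spinSign b = if xor a b = true then -1 else 1 := by
  cases a <;> cases b <;> simp [spinSign]

/-- a function which is constant across the bonds of a rectangle is constant on the rectangle
(induction on the horizontal, then on the vertical coordinate) -/
theorem const_of_rect {a b c d : ℤ} {τ : Site → Bool}
    (h : ∀ z j, z ∈ Finset.Icc a b ×ˢ Finset.Icc c d → z + unitVec j ∈ Finset.Icc a b ×ˢ Finset.Icc c d →
      τ z = τ (z + unitVec j)) {z z' : Site} (hz : z ∈ Finset.Icc a b ×ˢ Finset.Icc c d)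
    (hz' : z' ∈ Finset.Icc a b ×ˢ Finset.Icc c d) : τ z = τ z' := by
  have h1 : ∀ x y, a ≤ x → x ≤ b → c ≤ y → y ≤ d → τ (x, y) = τ (a, y) := by
    intro x y hx
    induction x, hx using Int.leInduction with
    | base => intros; rfl
    | succ n hn ih =>
      intro h1 h2 h3
      rw [← ih (by omega) h2 h3]
      have := h (n, y) 0 (by simp; omega) (by simp [unitVec]; omega)
      simpa [unitVec] using this.symm
  have h2 : ∀ y, c ≤ y → y ≤ d → a ≤ b → τ (a, y) = τ (a, c) := by
    intro y hy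
    induction y, hy using Int.leInduction with
    | base => intros; rfl
    | succ n hn ih =>
      intro h1 h2
      rw [← ih (by omega) h2]
      have := h (a, n) 1 (by simp; omega) (by simp [unitVec]; omega)
      simpa [unitVec] using this.symm
  obtain ⟨x, y⟩ := z
  obtain ⟨x', y'⟩ := z'
  simp only [Finset.mem_product, Finset.mem_Icc] at hz hz'
  rw [h1 x y hz.1.1 hz.1.2 hz.2.1 hz.2.2, h1 x' y' hz'.1.1 hz'.1.2 hz'.2.1 hz'.2.2,
    h2 y hz.2.1 hz.2.2 (hz.1.1.trans hz.1.2), h2 y' hz'.2.1 hz'.2.2 (hz.1.1.trans hz.1.2)]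

/-- the two predicates on `σ` are equal as functions; `sB` is `if h : ∃ σ, P σ then f h.choose else 0` (generalize `P`, `subst`) -/
theorem _root_.Crest.Agent.R165.sB_dependsOn (B : Finset Site) : DependsOn (sB B) ↑(bEdges B) := by
  intro n n' hn
  have key : ∀ P Q : (Site → Bool) → Prop, P = Q →
      (if h : ∃ σ, P σ then ∏ z ∈ B, spinSign (h.choose z) else 0) =
        if h : ∃ σ, Q σ then ∏ z ∈ B, spinSign (h.choose z) else 0 := by
    rintro P Q rfl
    rfl
  refine key _ _ (funext fun σ => propext (forall₂_congr fun e he => ?_))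
  rw [hn e (Finset.mem_coe.2 he)]

/-- `τ = xor σ h.choose` is constant on `bbox B ⊇ B` (`const_of_rect`, `bondEdge z j ∈ bEdges B`); if `τ = true` every factor changes sign, `(-1)^|B| = 1` -/
theorem _root_.Crest.Agent.R165.sB_nOf {B : Finset Site} (hB : Even B.card) (σ : Site → Bool) : sB B (nOf σ) = ∏ z ∈ B, spinSign (σ z) := by
  have h : ∃ σ' : Site → Bool, ∀ e ∈ bEdges B, nOf σ e = nOf σ' e := ⟨σ, fun _ _ => rfl⟩
  rw [sB, dif_pos h]
  have hs := h.choose_spec
  generalize h.choose = σ' at hs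
  rcases B.eq_empty_or_nonempty with rfl | hne
  · simp
  have hb : bbox B = Finset.Icc (B.inf' hne Prod.fst) (B.sup' hne Prod.fst) ×ˢ
      Finset.Icc (B.inf' hne Prod.snd) (B.sup' hne Prod.snd) := dif_pos hne
  have hm : ∀ z ∈ B, z ∈ bbox B := fun z hz => by
    rw [hb, Finset.mem_product, Finset.mem_Icc, Finset.mem_Icc]
    exact ⟨⟨Finset.inf'_le _ hz, Finset.le_sup' _ hz⟩, Finset.inf'_le _ hz, Finset.le_sup' _ hz⟩
  have hc : ∀ z ∈ B, ∀ z' ∈ B, xor (σ z) (σ' z) = xor (σ z') (σ' z') := by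
    intro z hz z' hz'
    refine const_of_rect (τ := fun z => xor (σ z) (σ' z)) (fun y j hy hy' => ?_) (hb ▸ hm z hz) (hb ▸ hm z' hz')
    rw [← hb] at hy hy'
    have := hs (bondEdge y j) (Finset.mem_filter.2 ⟨Finset.mem_image.2
      ⟨(y, j), Finset.mem_product.2 ⟨hy, Finset.mem_univ _⟩, rfl⟩, by
        rw [edgeB0_bondEdge, edgeB1_bondEdge]; exact ⟨hy, hy'⟩⟩)
    simp only [nOf, edgeB0_bondEdge, edgeB1_bondEdge] at this
    revert this
    show _ → xor (σ y) (σ' y) = xor (σ (y + unitVec j)) (σ' (y + unitVec j))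
    cases σ y <;> cases σ' y <;> cases σ (y + unitVec j) <;> cases σ' (y + unitVec j) <;> simp
  obtain ⟨z₀, hz₀⟩ := hne
  have hp : ∀ z ∈ B, spinSign (σ' z) = (if xor (σ z₀) (σ' z₀) = true then -1 else 1) * spinSign (σ z) := by
    intro z hz
    rw [← hc z hz z₀ hz₀]
    cases σ z <;> cases σ' z <;> simp [spinSign]
  rw [Finset.prod_congr rfl hp, Finset.prod_mul_distrib, Finset.prod_const]
  split_ifs
  · rw [hB.neg_one_pow, one_mul]
  · rw [one_pow, one_mul]

end Crest.Agent.R165.BA
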