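import Crest.Agent.R165.A.SB
import Crest.Agent.R165.T.Main

/-! # R165/A: spins and contours (owner helper66) -/

set_option autoImplicit false
noncomputable section
open Classical Crest.ProbabilityR.IsingModel

namespace Crest.Agent.R165.BA

/-- spin = parity of the crossings of the east ray -/
def spinOf (γ : Finset Edge) (v : Site) : Bool :=
  decide (Even (γ.filter fun e => e.2 = 1 ∧ v.2 = e.1.2 + 1 ∧ v.1 ≤ e.1.1).card)
/-- contour of a spin function -/
def cont (E : Finset Edge) (s : Site → Bool) : Finset Edge := E.filter fun e => nOf s e = true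

/-! ### task Spin-a -/

/-- `Finset.card_filter`, `Fin.sum_univ_four`, 16 cases -/
theorem evenSub_iff (γ : Finset Edge) : EvenSub γ ↔ ∀ x : Site,
    ((((x, 0) : Edge) ∈ γ ↔ ((x, 1) : Edge) ∈ γ) ↔ (((x - (1, 0), 0) : Edge) ∈ γ ↔ ((x - (0, 1), 1) : Edge) ∈ γ)) := by
  refine forall_congr' fun x => ?_
  rw [Finset.card_filter, Fin.sum_univ_four]
  have e0 : edgeOf x 0 = (x, 0) := rfl
  have e1 : edgeOf x 1 = (x, 1) := rfl
  have e2 : edgeOf x 2 = (x - (1, 0), 0) := rfl
  have e3 : edgeOf x 3 = (x - (0, 1), 1) := rfl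
  rw [e0, e1, e2, e3]
  by_cases h0 : ((x, 0) : Edge) ∈ γ <;> by_cases h1 : ((x, 1) : Edge) ∈ γ <;>
    by_cases h2 : ((x - (1, 0), 0) : Edge) ∈ γ <;> by_cases h3 : ((x - (0, 1), 1) : Edge) ∈ γ <;>
    simp only [h0, h1, h2, h3, if_true, if_false] <;> decide

/-- double counting (any `γ`): both sides are `∏_{v ∈ S} ∏_{e ∈ γ} (if e crosses the ray of v then -1 else 1)` -/
theorem prod_eray (γ : Finset Edge) (S : Finset Site) : ∏ e ∈ γ, eray S e = ∏ v ∈ S, spinSign (spinOf γ v) := by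
  have h1 : ∀ e : Edge, eray S e = ∏ v ∈ S, if e.2 = 1 ∧ v.2 = e.1.2 + 1 ∧ v.1 ≤ e.1.1 then (-1 : ℝ) else 1 := fun e => by
    rw [eray]
    split_ifs with h
    · simp [h, Finset.prod_ite]
    · simp [h]
  have h2 : ∀ v : Site, spinSign (spinOf γ v) =
      ∏ e ∈ γ, if e.2 = 1 ∧ v.2 = e.1.2 + 1 ∧ v.1 ≤ e.1.1 then (-1 : ℝ) else 1 := fun v => by
    rw [Finset.prod_ite, Finset.prod_const_one, mul_one, Finset.prod_const, spinOf, spinSign]
    by_cases h : Even (γ.filter fun e => e.2 = 1 ∧ v.2 = e.1.2 + 1 ∧ v.1 ≤ e.1.1).card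
    · rw [decide_eq_true h, if_pos rfl, h.neg_one_pow]
    · rw [decide_eq_false h, if_neg (by simp), (Nat.not_even_iff_odd.1 h).neg_one_pow]
  simp only [h1, h2]
  exact Finset.prod_comm

private theorem spina_bd (γ : Finset Edge) : ∃ N : ℤ, ∀ e ∈ γ, e.1.1 < N := by
  obtain ⟨N, hN⟩ := (γ.image fun e => e.1.1).bddAbove
  exact ⟨N + 1, fun e he => by have := hN (Finset.mem_coe.2 (Finset.mem_image_of_mem _ he)); omega⟩

theorem spinOf_east (γ : Finset Edge) : ∃ N : ℤ, ∀ v : Site, N ≤ v.1 → spinOf γ v = true := by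
  obtain ⟨N, hN⟩ := spina_bd γ
  refine ⟨N, fun v hv => decide_eq_true ?_⟩
  rw [Finset.filter_eq_empty_iff.2 fun e he h => by have := hN e he; omega]
  simp

/-- one step east along the ray: the filter for `v` is the filter for `v + (1,0)` plus possibly the edge `(v - (0,1), 1)` -/
theorem spinOf_step (γ : Finset Edge) (v : Site) :
    xor (spinOf γ v) (spinOf γ (v + (1, 0))) = decide (((v - (0, 1), 1) : Edge) ∈ γ) := by
  have key : ∀ e : Edge, (e.2 = 1 ∧ v.2 = e.1.2 + 1 ∧ v.1 ≤ e.1.1) ↔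
      (e = (v - (0, 1), 1) ∨ (e.2 = 1 ∧ (v + (1, 0)).2 = e.1.2 + 1 ∧ (v + (1, 0)).1 ≤ e.1.1)) := fun e => by
    obtain ⟨⟨a, b⟩, j⟩ := e
    simp only [Prod.ext_iff, Prod.fst_sub, Prod.snd_sub, Prod.fst_add, Prod.snd_add]
    by_cases h : j = 1 <;> simp only [h, true_and, and_true, false_and, and_false, or_self] <;> omega
  have hn : ((v - (0, 1), 1) : Edge) ∉
      γ.filter fun e => e.2 = 1 ∧ (v + (1, 0)).2 = e.1.2 + 1 ∧ (v + (1, 0)).1 ≤ e.1.1 := by
    simp
  simp only [spinOf, key]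
  rw [Finset.filter_or, Finset.filter_eq']
  split_ifs with h
  · rw [← Finset.insert_eq, Finset.card_insert_of_notMem hn]
    simp only [Nat.even_add_one, decide_not, h, decide_true]
    simp
  · simp [h]

/-- vertical edges: `spinOf_step`. Horizontal edge `(x, 0)`: `D x := xor (nOf (spinOf γ) (x,0)) (ind γ (x,0))` satisfies `D x = D (x + (1,0))`
(`spinOf_step` twice and evenness at `x + (1,0)`) and vanishes far east (`spinOf_east`); downward induction on `x.1`. -/
theorem nOf_spinOf {γ : Finset Edge} (h : EvenSub γ) : nOf (spinOf γ) = ind γ := by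
  rw [evenSub_iff] at h
  obtain ⟨N, hN⟩ := spinOf_east γ
  obtain ⟨N', hN'⟩ := spina_bd γ
  have key : ∀ (k : ℕ) (x : Site), max N N' ≤ x.1 + k →
      xor (spinOf γ (x + (1, 0))) (spinOf γ (x + (1, 1))) = decide (((x, 0) : Edge) ∈ γ) := fun k => by
    induction k with
    | zero =>
      intro x hx
      have h1 := le_of_max_le_left hx
      have h2 := le_of_max_le_right hx
      rw [hN _ (by simp; omega), hN _ (by simp; omega), decide_eq_false fun h => by have := hN' _ h; simp at this; omega]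
      rfl
    | succ k ih =>
      intro x hx
      have h1 := ih (x + (1, 0)) (by simp only [Prod.fst_add]; push_cast at hx; omega)
      have h2 := spinOf_step γ (x + (1, 0))
      have h3 := spinOf_step γ (x + (1, 1))
      have h4 := h (x + (1, 0))
      rw [show x + (1, 1) + (1, 0) = x + (1, 0) + (1, 1) from add_right_comm _ _ _,
        show x + (1, 1) - (0, 1) = x + (1, 0) by simp [Prod.ext_iff]] at h3
      rw [add_sub_cancel_right] at h4
      revert h1 h2 h3 h4
      generalize spinOf γ (x + (1, 0)) = a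
      generalize spinOf γ (x + (1, 1)) = b
      generalize spinOf γ (x + (1, 0) + (1, 0)) = c
      generalize spinOf γ (x + (1, 0) + (1, 1)) = d
      by_cases p0 : ((x, 0) : Edge) ∈ γ <;> by_cases p1 : ((x + (1, 0), 0) : Edge) ∈ γ <;>
        by_cases p2 : ((x + (1, 0), 1) : Edge) ∈ γ <;> by_cases p3 : ((x + (1, 0) - (0, 1), 1) : Edge) ∈ γ <;>
        simp only [p0, p1, p2, p3] <;> revert a b c d <;> decide
  funext ⟨x, j⟩
  fin_cases j
  · exact key (max N N' - x.1).toNat x (by omega)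
  · have := spinOf_step γ (x + (0, 1))
    rw [add_sub_cancel_right, show x + (0, 1) + (1, 0) = x + (1, 1) by simp [Prod.ext_iff]] at this
    exact this

theorem evenSub_of_nOf {γ : Finset Edge} {s : Site → Bool} (h : ind γ = nOf s) : EvenSub γ := by
  rw [evenSub_iff]
  intro x
  have k : ∀ e, e ∈ γ ↔ nOf s e = true := fun e => by rw [← h, ind, decide_eq_true_iff]
  have e0 : nOf s (x, 0) = xor (s (x + (1, 0))) (s (x + (1, 1))) := rfl
  have e1 : nOf s (x, 1) = xor (s (x + (0, 1))) (s (x + (1, 1))) := rfl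
  have e2 : nOf s (x - (1, 0), 0) = xor (s (x - (1, 0) + (1, 0))) (s (x - (1, 0) + (1, 1))) := rfl
  have e3 : nOf s (x - (0, 1), 1) = xor (s (x - (0, 1) + (0, 1))) (s (x - (0, 1) + (1, 1))) := rfl
  rw [sub_add_cancel, show x - (1, 0) + (1, 1) = x + (0, 1) by simp [Prod.ext_iff]] at e2
  rw [sub_add_cancel, show x - (0, 1) + (1, 1) = x + (1, 0) by simp [Prod.ext_iff]] at e3
  rw [k, k, k, k, e0, e1, e2, e3]
  generalize s x = a
  generalize s (x + (1, 0)) = b
  generalize s (x + (0, 1)) = c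
  generalize s (x + (1, 1)) = d
  revert a b c d
  decide

/-- `const_of_rect` for `xor s s'` on a rectangle containing both points -/
theorem eq_of_nOf_eq {s s' : Site → Bool} (h : nOf s = nOf s') {v : Site} (hv : s v = s' v) : s = s' := by
  funext z
  have := const_of_rect (a := min v.1 z.1) (b := max v.1 z.1) (c := min v.2 z.2) (d := max v.2 z.2)
    (τ := fun w => xor (s w) (s' w)) (fun w j _ _ => by
      have := congrFun h (bondEdge w j)
      rw [nOf, nOf, edgeB0_bondEdge, edgeB1_bondEdge] at this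
      revert this
      generalize s w = a
      generalize s' w = b
      generalize s (w + unitVec j) = c
      generalize s' (w + unitVec j) = d
      revert a b c d
      decide) (z := v) (z' := z) (by simp) (by simp)
  simpa [hv] using this

theorem spinOf_eq {γ : Finset Edge} {s : Site → Bool} (h : ind γ = nOf s)
    (hs : ∃ N : ℤ, ∀ v : Site, N ≤ v.1 → s v = true) : spinOf γ = s := by
  obtain ⟨N, hN⟩ := hs
  obtain ⟨N', hN'⟩ := spinOf_east γ
  exact eq_of_nOf_eq ((nOf_spinOf (evenSub_of_nOf h)).trans h) (v := (max N N', 0))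
    ((hN' _ (le_max_right _ _)).trans (hN _ (le_max_left _ _)).symm)

theorem ind_cont {E : Finset Edge} {s : Site → Bool} (h : ∀ e, e ∉ E → nOf s e = false) : ind (cont E s) = nOf s := by
  funext e
  rw [ind, cont]
  by_cases he : e ∈ E
  · simp [he]
  · simp [he, h e he]

theorem cont_spinOf {E γ : Finset Edge} (hγ : EvenSub γ) (hE : γ ⊆ E) : cont E (spinOf γ) = γ := by
  ext e
  rw [cont, nOf_spinOf hγ, Finset.mem_filter, ind, decide_eq_true_iff]
  exact ⟨fun h => h.2, fun h => ⟨hE h, h⟩⟩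

/-! ### task Spin-b -/

private theorem spinb_east (T : Finset Site) : ∃ N : ℤ, ∀ v : Site, N ≤ v.1 → v ∉ T := by
  obtain ⟨N, hN⟩ := (T.image Prod.fst).bddAbove
  exact ⟨N + 1, fun v h hv => by have := hN (Finset.mem_coe.2 (Finset.mem_image_of_mem _ hv)); omega⟩

private theorem spinb_key {T : Finset Site} {E : Finset Edge} (hE : ∀ e, e ∈ ePlus (↑T : Set Site) → e ∈ E)
    {s₀ s : Site → Bool} (hs : ∀ z, z ∉ T → s z = s₀ z) (h0 : ∀ e, e ∉ E → nOf s₀ e = false)
    (h1 : ∃ N : ℤ, ∀ v : Site, N ≤ v.1 → s₀ v = true) :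
    cont E s ∈ E.powerset.filter EvenSub ∧ spinOf (cont E s) = s := by
  have h2 : ind (cont E s) = nOf s := ind_cont fun e he => by
    rw [← h0 e he, nOf, nOf, hs _ fun h => he (hE e (Or.inl h)), hs _ fun h => he (hE e (Or.inr h))]
  obtain ⟨N, hN⟩ := h1
  obtain ⟨N', hN'⟩ := spinb_east T
  exact ⟨Finset.mem_filter.2 ⟨Finset.mem_powerset.2 (Finset.filter_subset _ _), evenSub_of_nOf h2⟩,
    spinOf_eq h2 ⟨max N N', fun v hv => (hs v (hN' v (le_of_max_le_right hv))).trans (hN v (le_of_max_le_left hv))⟩⟩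

private theorem spinb_edge (b : Site) (α : Fin 4) :
    ∃ e, (edgeB0 e = b ∧ edgeB1 e = b + dv α) ∨ (edgeB0 e = b + dv α ∧ edgeB1 e = b) := by
  fin_cases α
  · exact ⟨(b - (0, 1), 1), Or.inl (by simp [edgeB0, edgeB1, dv, Prod.ext_iff])⟩
  · exact ⟨(b - (1, 0), 0), Or.inl (by simp [edgeB0, edgeB1, dv, Prod.ext_iff])⟩
  · exact ⟨(b - (1, 1), 1), Or.inr (by simp [edgeB0, edgeB1, dv, Prod.ext_iff, sub_eq_add_neg])⟩
  · exact ⟨(b - (1, 1), 0), Or.inr (by simp [edgeB0, edgeB1, dv, Prod.ext_iff, sub_eq_add_neg])⟩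

private theorem spinb_out {E γ : Finset Edge} (h : γ ∈ E.powerset.filter EvenSub) (e : Edge) (he : e ∉ E) :
    nOf (spinOf γ) e = false := by
  rw [nOf_spinOf (Finset.mem_filter.1 h).2]
  exact decide_eq_false fun h' => he (Finset.mem_powerset.1 (Finset.mem_filter.1 h).1 h')

private theorem spinb_inv {E γ : Finset Edge} (h : γ ∈ E.powerset.filter EvenSub) : cont E (spinOf γ) = γ :=
  cont_spinOf (Finset.mem_filter.1 h).2 (Finset.mem_powerset.1 (Finset.mem_filter.1 h).1)

/-- plus b.c.: `σ ↦ cont E (extendConfig σ)` and `γ ↦ spinOf γ |_T` are inverse bijections (`Finset.sum_nbij'`).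
`spinOf γ = true` off `T`: follow the path of `ExtConn` to a far-east site; its bonds are crossed by edges not in `E` (`bondEdge`). -/
theorem sum_plus (T : Finset Site) (hc : ExtConn ↑T) (E : Finset Edge) (hE : ∀ e, e ∈ E ↔ e ∈ ePlus ↑T)
    (Ψ : (Site → Bool) → ℝ) :
    ∑ σ : T → Bool, Ψ (extendConfig T .plus σ) = ∑ γ ∈ E.powerset.filter EvenSub, Ψ (spinOf γ) := by
  have k := fun σ : T → Bool => spinb_key (fun e => (hE e).2) (s₀ := fun _ => true) (s := extendConfig T .plus σ)
    (fun z hz => dif_neg hz) (fun _ _ => rfl) ⟨0, fun _ _ => rfl⟩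
  refine Finset.sum_nbij' (fun σ => cont E (extendConfig T .plus σ)) (fun γ z => spinOf γ z) (fun σ _ => (k σ).1)
    (fun _ _ => Finset.mem_univ _) (fun σ _ => funext fun z => ?_) (fun γ hγ => ?_) fun σ _ => by rw [(k σ).2]
  · rw [(k σ).2]
    exact dif_pos z.2
  · refine Eq.trans (congrArg _ (funext fun z => ?_)) (spinb_inv hγ)
    rw [extendConfig]
    split_ifs with hz
    · rfl
    obtain ⟨N, hN⟩ := spinOf_east γ
    obtain ⟨N', hN'⟩ := spinb_east T
    have h1 := hc (max N N', 0) z (hN' _ (le_max_right _ _)) hz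
    clear hz
    induction h1 with
    | refl => exact (hN _ (le_max_left _ _)).symm
    | tail _ h ih =>
      obtain ⟨h1, h2, α, rfl⟩ := h
      obtain ⟨e, he⟩ := spinb_edge _ α
      have := spinb_out hγ e fun h => by
        rcases he with ⟨e0, e1⟩ | ⟨e0, e1⟩ <;> rcases (hE e).1 h with h | h <;> simp only [e0, e1] at h <;> contradiction
      rw [ih]
      rcases he with ⟨e0, e1⟩ | ⟨e0, e1⟩ <;> rw [nOf, e0, e1, bne_eq_false_iff_eq] at this
      exacts [this, this.symm]

/-- free b.c.: the fibres of `γ ↦ spinOf γ |_T` all have the same cardinality `N` (bijection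
`γ ↦ cont E (fun z => if h : z ∈ T then σ' ⟨z, h⟩ else spinOf γ z)`; `ind_cont`, `evenSub_of_nOf`, `spinOf_eq`, `cont_spinOf`),
`N ≠ 0` because `∅` is even; `Finset.sum_fiberwise`/`card_eq_sum_card_fiberwise`. -/
theorem sum_free (T : Finset Site) (E : Finset Edge) (hE : ∀ e, e ∈ ePlus (↑T : Set Site) → e ∈ E) :
    ∃ N : ℝ, N ≠ 0 ∧ ∀ Ψ : (Site → Bool) → ℝ, DependsOn Ψ ↑T →
      ∑ γ ∈ E.powerset.filter EvenSub, Ψ (spinOf γ) = N * ∑ σ : T → Bool, Ψ (extendConfig T .free σ) := by
  have le : ∀ σ σ' : T → Bool, ((E.powerset.filter EvenSub).filter fun γ => (fun z : T => spinOf γ z) = σ).card ≤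
      ((E.powerset.filter EvenSub).filter fun γ => (fun z : T => spinOf γ z) = σ').card := fun σ σ' => by
    have k := fun γ (hγ : γ ∈ E.powerset.filter EvenSub) => spinb_key hE (s₀ := spinOf γ)
      (s := fun z => if h : z ∈ T then σ' ⟨z, h⟩ else spinOf γ z) (fun z hz => dif_neg hz) (spinb_out hγ) (spinOf_east γ)
    refine Finset.card_le_card_of_injOn (fun γ => cont E fun z => if h : z ∈ T then σ' ⟨z, h⟩ else spinOf γ z)
      (fun γ hγ => ?_) fun γ hγ γ' hγ' h => ?_
    · have h1 := k γ (Finset.mem_filter.1 hγ).1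
      exact Finset.mem_coe.2 (Finset.mem_filter.2 ⟨h1.1, funext fun z => by rw [h1.2]; exact dif_pos z.2⟩)
    · obtain ⟨h1, h2⟩ := Finset.mem_filter.1 hγ
      obtain ⟨h3, h4⟩ := Finset.mem_filter.1 hγ'
      have h5 := (k γ h1).2.symm.trans ((congrArg spinOf h).trans (k γ' h3).2)
      rw [← spinb_inv h1, ← spinb_inv h3]
      refine congrArg _ (funext fun z => ?_)
      by_cases hz : z ∈ T
      · exact congrFun (h2.trans h4.symm) ⟨z, hz⟩
      · simpa [hz] using congrFun h5 z
  refine ⟨((E.powerset.filter EvenSub).filter fun γ => (fun z : T => spinOf γ z) = fun z : T => spinOf ∅ z).card,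
    Nat.cast_ne_zero.2 (Finset.card_ne_zero.2 ⟨∅, by simp [EvenSub]⟩), fun Ψ hΨ => ?_⟩
  rw [← Finset.sum_fiberwise _ fun γ (z : T) => spinOf γ z, Finset.mul_sum]
  refine Finset.sum_congr rfl fun σ _ => ?_
  rw [le_antisymm (le _ σ) (le σ _), ← nsmul_eq_mul, ← Finset.sum_const]
  refine Finset.sum_congr rfl fun γ hγ => hΨ fun z hz => ?_
  rw [← (Finset.mem_filter.1 hγ).2]
  exact (dif_pos (Finset.mem_coe.1 hz) : extendConfig T .free (fun z => spinOf γ z) z = _).symm

end Crest.Agent.R165.BA
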