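import Crest.Agent.R165.A.Mat
import Crest.Agent.R165.A.Spin

/-! # R165/A: the planar sign lemma (owner helper66, proved by the owner) -/

set_option autoImplicit false
noncomputable section
open Classical Crest.ProbabilityR.IsingModel

namespace Crest.Agent.R165.BA

section moves
variable {I : Type}

theorem contract_eq_zero (d : Module.Dual ℝ (GV I)) {S : Set I} (hd : ∀ k ∈ S, d (Finsupp.single k 1) = 0)
    {Y : Gr I} (hY : Y ∈ supA S) : CliffordAlgebra.contractLeft d Y = 0 := by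
  have key : ∀ Z : Gr I, CliffordAlgebra.contractLeft d Z = 0 → CliffordAlgebra.contractLeft d (Y * Z) = 0 := by
    induction hY using Algebra.adjoin_induction with
    | mem x hx =>
      obtain ⟨k, hk, rfl⟩ := hx
      intro Z hZ
      have := CliffordAlgebra.contractLeft_ι_mul (Q := (0 : QuadraticForm ℝ (GV I))) d (Finsupp.single k 1) Z
      rw [hZ, hd k hk] at this
      simpa [th] using this
    | algebraMap r =>
      intro Z hZ
      rw [CliffordAlgebra.contractLeft_algebraMap_mul, hZ, mul_zero]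
    | add x y _ _ hx hy =>
      intro Z hZ
      rw [add_mul, map_add, hx Z hZ, hy Z hZ, add_zero]
    | mul x y _ _ hx hy =>
      intro Z hZ
      rw [mul_assoc]
      exact hx _ (hy Z hZ)
  simpa using key 1 (CliffordAlgebra.contractLeft_one _ d)

theorem bil_single {g : I → I → ℝ} (hg : Antisym g) (i k : I) :
    bil g (Finsupp.single i 1) (Finsupp.single k 1) = g i k := by
  simp [bil, bil0, hg i k]
  ring

theorem th_sw (i j : I) (Z : Gr I) : th i * (th j * Z) = -(th j * (th i * Z)) := by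
  rw [← mul_assoc, th_swap, neg_mul, mul_assoc]

theorem iota_sub (i j : I) (c : ℝ) :
    ExteriorAlgebra.ι ℝ (Finsupp.single i (1 : ℝ) - c • Finsupp.single j (1 : ℝ)) = th i - c • th j := by
  rw [map_sub, map_smul]; rfl

theorem mv1 {g : I → I → ℝ} (hg : Antisym g) {S : Set I} {i j : I} {c : ℝ} (h : ∀ k ∈ S, g i k = c * g j k)
    {Y : Gr I} (hY : Y ∈ supA S) : gauss g (th i * Y) = c * gauss g (th j * Y) := by
  have h1 := gauss_iota_mul g (Finsupp.single i (1 : ℝ) - c • Finsupp.single j (1 : ℝ)) Y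
  rw [contract_eq_zero _ _ hY, iota_sub, sub_mul, map_sub, smul_mul_assoc, map_smul, map_zero] at h1
  · simpa [sub_eq_zero] using h1
  · intro k hk
    rw [map_sub, map_smul, LinearMap.sub_apply, LinearMap.smul_apply, bil_single hg, bil_single hg, h k hk]
    simp

theorem mv2 {g : I → I → ℝ} (hg : Antisym g) {S : Set I} {i j : I} {c : ℝ} (h : ∀ k ∈ S, g i k = c * g j k)
    {Y : Gr I} (hY : Y ∈ supA S) : gauss g (th i * (th j * Y)) = g i j * gauss g Y := by
  have h1 := gauss_iota_mul g (Finsupp.single i (1 : ℝ) - c • Finsupp.single j (1 : ℝ)) (th j * Y)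
  have h2 := CliffordAlgebra.contractLeft_ι_mul (Q := (0 : QuadraticForm ℝ (GV I)))
    (bil g (Finsupp.single i (1 : ℝ) - c • Finsupp.single j (1 : ℝ))) (Finsupp.single j 1) Y
  have h0 : CliffordAlgebra.contractLeft
      (bil g (Finsupp.single i (1 : ℝ) - c • Finsupp.single j (1 : ℝ))) Y = 0 := by
    refine contract_eq_zero _ ?_ hY
    intro k hk
    rw [map_sub, map_smul, LinearMap.sub_apply, LinearMap.smul_apply, bil_single hg, bil_single hg, h k hk]
    simp
  have h3 : bil g (Finsupp.single i (1 : ℝ) - c • Finsupp.single j (1 : ℝ)) (Finsupp.single j 1) = g i j := by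
    rw [map_sub, map_smul, LinearMap.sub_apply, LinearMap.smul_apply, bil_single hg, bil_self]
    simp
  rw [h0, h3, mul_zero, sub_zero] at h2
  have h4 : CliffordAlgebra.contractLeft
      (bil g (Finsupp.single i (1 : ℝ) - c • Finsupp.single j (1 : ℝ))) (th j * Y) = g i j • Y := h2
  rw [h4, iota_sub, sub_mul, smul_mul_assoc, ← mul_assoc (th j) (th j), th_sq, zero_mul, smul_zero, sub_zero,
    map_smul] at h1
  simpa using h1

end moves

/-- all half-edges but two at the site `x` -/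
def Fr (x : Site) (α β : Fin 4) : Set HE := {k | k ≠ (x, α) ∧ k ≠ (x, β)}

theorem g0_corner (x : Site) (α β : Fin 4) (c : ℝ) (h : ∀ δ, δ ≠ α → δ ≠ β → G0 α δ = c * G0 β δ) :
    ∀ k ∈ Fr x α β, g0 (x, α) k = c * g0 (x, β) k := by
  rintro ⟨y, δ⟩ ⟨h1, h2⟩
  by_cases hy : x = y
  · subst hy
    simp only [g0, if_true]
    exact h δ (fun e => h1 (by rw [e])) (fun e => h2 (by rw [e]))
  · simp [g0, hy]

theorem c01 (x : Site) : ∀ k ∈ Fr x 0 1, g0 (x, 0) k = (-1) * g0 (x, 1) k :=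
  g0_corner x 0 1 _ (by intro δ; fin_cases δ <;> simp [G0])
theorem c12 (x : Site) : ∀ k ∈ Fr x 1 2, g0 (x, 1) k = (-1) * g0 (x, 2) k :=
  g0_corner x 1 2 _ (by intro δ; fin_cases δ <;> simp [G0])
theorem c23 (x : Site) : ∀ k ∈ Fr x 2 3, g0 (x, 2) k = (-1) * g0 (x, 3) k :=
  g0_corner x 2 3 _ (by intro δ; fin_cases δ <;> simp [G0])
theorem c03 (x : Site) : ∀ k ∈ Fr x 0 3, g0 (x, 0) k = 1 * g0 (x, 3) k :=
  g0_corner x 0 3 _ (by intro δ; fin_cases δ <;> simp [G0])

/-- the plaquette with lower-left corner `a` -/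
def plq (a : Site) : Finset Edge := {(a, 0), (a, 1), (a + (0, 1), 0), (a + (1, 0), 1)}

def offP (a : Site) : Set HE := {k | edgeOf k.1 k.2 ∉ plq a}

section plaq
variable (a : Site)

theorem offP_a : offP a ⊆ Fr a 0 1 := by
  intro k hk
  constructor <;> rintro rfl <;> exact hk (by simp [plq, edgeOf])
theorem offP_b : offP a ⊆ Fr (a + (1, 0)) 1 2 := by
  intro k hk
  constructor <;> rintro rfl <;> exact hk (by simp [plq, edgeOf])
theorem offP_c : offP a ⊆ Fr (a + (0, 1)) 0 3 := by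
  intro k hk
  constructor <;> rintro rfl <;> exact hk (by simp [plq, edgeOf])
theorem offP_d : offP a ⊆ Fr (a + (1, 1)) 2 3 := by
  intro k hk
  constructor <;> rintro rfl <;> exact hk (by simp [plq, edgeOf, Prod.ext_iff])

theorem fr_mul {x y : Site} {α β δ : Fin 4} (h : y ≠ x) {Z : Gr HE} (hZ : Z ∈ supA (Fr x α β)) :
    th ((y, δ) : HE) * Z ∈ supA (Fr x α β) :=
  mul_mem (th_mem_supA ⟨fun e => h (congrArg Prod.fst e), fun e => h (congrArg Prod.fst e)⟩) hZ

theorem ne_ab : a ≠ a + (1, 0) := by simp [Prod.ext_iff]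
theorem ne_ac : a ≠ a + (0, 1) := by simp [Prod.ext_iff]
theorem ne_ad : a ≠ a + (1, 1) := by simp [Prod.ext_iff]
theorem ne_bc : a + (1, 0) ≠ a + (0, 1) := by simp [Prod.ext_iff]
theorem ne_bd : a + (1, 0) ≠ a + (1, 1) := by simp [Prod.ext_iff]
theorem ne_cd : a + (0, 1) ≠ a + (1, 1) := by simp [Prod.ext_iff]

/-- integrate the top-right corner -/
theorem plq_tr {Z : Gr HE} (hZ : Z ∈ supA (Fr (a + (1, 1)) 2 3)) :
    gauss g0 (th ((a + (0, 1), 0) : HE) * (th ((a + (1, 1), 2) : HE) * (th ((a + (1, 0), 1) : HE) *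
      (th ((a + (1, 1), 3) : HE) * Z)))) =
    gauss g0 (th ((a + (1, 0), 1) : HE) * (th ((a + (0, 1), 0) : HE) * Z)) := by
  rw [th_sw ((a + (0, 1), 0) : HE) (a + (1, 1), 2), th_sw ((a + (0, 1), 0) : HE) (a + (1, 0), 1),
    th_sw ((a + (0, 1), 0) : HE) (a + (1, 1), 3)]
  simp only [mul_neg, neg_neg]
  rw [th_sw ((a + (1, 0), 1) : HE) (a + (1, 1), 3)]
  simp only [mul_neg, neg_neg]
  rw [mv2 antisym_g0 (c23 _) (fr_mul (ne_bd a) (fr_mul (ne_cd a) hZ))]
  simp [g0, G0]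

theorem plq_case0 {Y : Gr HE} (hY : Y ∈ supA (offP a)) :
    gauss g0 (th ((a + (1, 0), 1) : HE) * (th ((a + (0, 1), 0) : HE) * Y)) =
    gauss g0 (th ((a, 0) : HE) * (th ((a + (1, 0), 2) : HE) * (th ((a, 1) : HE) * (th ((a + (0, 1), 3) : HE) * Y)))) := by
  have hYa := supA_mono (offP_a a) hY
  have hYb := supA_mono (offP_b a) hY
  have hYc := supA_mono (offP_c a) hY
  rw [mv1 antisym_g0 (c12 _) (fr_mul (ne_bc a).symm hYb), th_sw ((a + (1, 0), 2) : HE) (a + (0, 1), 0), map_neg,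
    mv1 antisym_g0 (c03 _) (fr_mul (ne_bc a) hYc), th_sw ((a + (1, 0), 2) : HE) (a, 1), mul_neg (th _), map_neg,
    mv2 antisym_g0 (c01 _) (fr_mul (ne_ab a).symm (fr_mul (ne_ac a).symm hYa)),
    th_sw ((a + (1, 0), 2) : HE) (a + (0, 1), 3), map_neg]
  simp [g0, G0]

theorem plq_caseL {Y : Gr HE} (hY : Y ∈ supA (offP a)) :
    gauss g0 (th ((a + (1, 0), 1) : HE) * (th ((a + (0, 1), 0) : HE) *
      (th ((a, 1) : HE) * (th ((a + (0, 1), 3) : HE) * Y)))) =
    gauss g0 (th ((a, 0) : HE) * (th ((a + (1, 0), 2) : HE) * Y)) := by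
  have hYa := supA_mono (offP_a a) hY
  have hYb := supA_mono (offP_b a) hY
  have hYc := supA_mono (offP_c a) hY
  rw [th_sw ((a, 1) : HE) (a + (0, 1), 3), th_sw ((a + (1, 0), 1) : HE) (a + (0, 1), 0)]
  simp only [mul_neg, neg_neg]
  rw [th_sw ((a + (1, 0), 1) : HE) (a + (0, 1), 3), mul_neg, map_neg,
    mv2 antisym_g0 (c03 _) (fr_mul (ne_bc a) (fr_mul (ne_ac a) hYc)),
    mv1 antisym_g0 (c12 _) (fr_mul (ne_ab a) hYb),
    mv1 antisym_g0 (c01 _) (fr_mul (ne_ab a).symm hYa), th_sw ((a, 1) : HE) (a + (1, 0), 2), map_neg]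
  simp [g0, G0]

theorem plq_caseO {Y : Gr HE} (hY : Y ∈ supA (offP a)) :
    gauss g0 (th ((a + (1, 0), 1) : HE) * (th ((a + (0, 1), 0) : HE) *
      (th ((a, 0) : HE) * (th ((a + (1, 0), 2) : HE) * Y)))) =
    gauss g0 (th ((a, 1) : HE) * (th ((a + (0, 1), 3) : HE) * Y)) := by
  have hYa := supA_mono (offP_a a) hY
  have hYb := supA_mono (offP_b a) hY
  have hYc := supA_mono (offP_c a) hY
  rw [th_sw ((a, 0) : HE) (a + (1, 0), 2), mul_neg, th_sw ((a + (0, 1), 0) : HE) (a + (1, 0), 2), neg_neg,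
    mv2 antisym_g0 (c12 _) (fr_mul (ne_bc a).symm (fr_mul (ne_ab a) hYb)),
    mv1 antisym_g0 (c03 _) (fr_mul (ne_ac a) hYc), th_sw ((a + (0, 1), 3) : HE) (a, 0), map_neg,
    mv1 antisym_g0 (c01 _) (fr_mul (ne_ac a).symm hYa)]
  simp [g0, G0]

theorem plq_caseB {Y : Gr HE} (hY : Y ∈ supA (offP a)) :
    gauss g0 (th ((a + (1, 0), 1) : HE) * (th ((a + (0, 1), 0) : HE) *
      (th ((a, 0) : HE) * (th ((a + (1, 0), 2) : HE) * (th ((a, 1) : HE) * (th ((a + (0, 1), 3) : HE) * Y)))))) =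
    gauss g0 Y := by
  have hYa := supA_mono (offP_a a) hY
  have hYb := supA_mono (offP_b a) hY
  have hYc := supA_mono (offP_c a) hY
  rw [th_sw ((a, 0) : HE) (a + (1, 0), 2), mul_neg, th_sw ((a + (0, 1), 0) : HE) (a + (1, 0), 2), neg_neg,
    mv2 antisym_g0 (c12 _) (fr_mul (ne_bc a).symm (fr_mul (ne_ab a) (fr_mul (ne_ab a) (fr_mul (ne_bc a).symm hYb)))),
    th_sw ((a, 1) : HE) (a + (0, 1), 3), mul_neg, th_sw ((a, 0) : HE) (a + (0, 1), 3), neg_neg,
    mv2 antisym_g0 (c03 _) (fr_mul (ne_ac a) (fr_mul (ne_ac a) hYc)),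
    mv2 antisym_g0 (c01 _) hYa]
  simp [g0, G0]

theorem prod_plq {M : Type} [CommMonoid M] (f : Edge → M) (γ : Finset Edge) :
    ∏ e ∈ γ, f e = (if ((a + (0, 1), 0) : Edge) ∈ γ then f (a + (0, 1), 0) else 1) *
      ((if ((a + (1, 0), 1) : Edge) ∈ γ then f (a + (1, 0), 1) else 1) *
      ((if ((a, 0) : Edge) ∈ γ then f (a, 0) else 1) * ((if ((a, 1) : Edge) ∈ γ then f (a, 1) else 1) *
        ∏ e ∈ γ \ plq a, f e))) := by
  rw [← Finset.prod_inter_mul_prod_sdiff γ (plq a), Finset.inter_comm, ← Finset.prod_ite_mem, plq,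
    Finset.prod_insert (by simp [Prod.ext_iff]), Finset.prod_insert (by simp [Prod.ext_iff]),
    Finset.prod_insert (by simp [Prod.ext_iff]), Finset.prod_singleton]
  ac_rfl

theorem evenSub_plq : EvenSub (plq a) := by
  rw [evenSub_iff]
  rintro ⟨x, y⟩
  obtain ⟨p, q⟩ := a
  simp only [plq, Finset.mem_insert, Finset.mem_singleton, Prod.mk.injEq, Prod.mk_add_mk, Prod.mk_sub_mk]
  simp
  omega

end plaq

theorem xor8 (a b c d p q r s : Prop) (h : (p ↔ q) ↔ (r ↔ s)) :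
    ((((a ∧ ¬ p ∨ p ∧ ¬ a) ↔ (b ∧ ¬ q ∨ q ∧ ¬ b)) ↔ ((c ∧ ¬ r ∨ r ∧ ¬ c) ↔ (d ∧ ¬ s ∨ s ∧ ¬ d)))) ↔
      ((a ↔ b) ↔ (c ↔ d)) := by
  by_cases hp : p <;> by_cases hq : q <;> by_cases hr : r <;> by_cases hs : s <;>
    by_cases ha : a <;> by_cases hb : b <;> by_cases hc : c <;> by_cases hd : d <;> simp_all

theorem evenSub_symmDiff {γ P : Finset Edge} (hP : EvenSub P) : EvenSub (symmDiff γ P) ↔ EvenSub γ := by
  rw [evenSub_iff] at hP ⊢
  rw [evenSub_iff]
  refine forall_congr' fun x => ?_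
  have := hP x
  simp only [Finset.mem_symmDiff]
  exact xor8 _ _ _ _ _ _ _ _ this

theorem prod_mem_supA {I κ : Type} {S : Set I} (γ : Finset κ) (f : κ → Ev I) (h : ∀ e ∈ γ, (f e : Gr I) ∈ supA S) :
    ((∏ e ∈ γ, f e : Ev I) : Gr I) ∈ supA S := by
  induction γ using Finset.induction_on with
  | empty => simp
  | insert e γ he ih =>
    rw [Finset.prod_insert he]
    exact mul_mem (h e (Finset.mem_insert_self _ _)) (ih fun e' h' => h e' (Finset.mem_insert_of_mem h'))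

theorem coe_eM (e : Edge) : ((eM id e : Ev HE) : Gr HE) = th (he0 e) * th (he1 e) := rfl

theorem eM_mem {S : Set HE} {e : Edge} (h0 : he0 e ∈ S) (h1 : he1 e ∈ S) : ((eM id e : Ev HE) : Gr HE) ∈ supA S :=
  mul_mem (th_mem_supA h0) (th_mem_supA h1)

theorem gauss_flip (a : Site) (γ : Finset Edge) (ht : ((a + (0, 1), 0) : Edge) ∈ γ) (hr : ((a + (1, 0), 1) : Edge) ∈ γ) :
    gauss g0 ((∏ e ∈ γ, eM id e : Ev HE) : Gr HE) =
      gauss g0 ((∏ e ∈ symmDiff γ (plq a), eM id e : Ev HE) : Gr HE) := by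
  have hd : symmDiff γ (plq a) \ plq a = γ \ plq a := by
    ext e; simp only [Finset.mem_sdiff, Finset.mem_symmDiff]; tauto
  have hY : ((∏ e ∈ γ \ plq a, eM id e : Ev HE) : Gr HE) ∈ supA (offP a) := by
    refine prod_mem_supA _ _ fun e he => eM_mem ?_ ?_
    · show edgeOf _ _ ∉ _
      rw [edgeOf_he0]; exact (Finset.mem_sdiff.1 he).2
    · show edgeOf _ _ ∉ _
      rw [edgeOf_he1]; exact (Finset.mem_sdiff.1 he).2
  have m1 : ((a + (0, 1), 0) : Edge) ∉ symmDiff γ (plq a) := by simp [Finset.mem_symmDiff, ht, plq]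
  have m2 : ((a + (1, 0), 1) : Edge) ∉ symmDiff γ (plq a) := by simp [Finset.mem_symmDiff, hr, plq]
  have m3 : ((a, 0) : Edge) ∈ symmDiff γ (plq a) ↔ ((a, 0) : Edge) ∉ γ := by simp [Finset.mem_symmDiff, plq]
  have m4 : ((a, 1) : Edge) ∈ symmDiff γ (plq a) ↔ ((a, 1) : Edge) ∉ γ := by simp [Finset.mem_symmDiff, plq]
  have et : ((eM id ((a + (0, 1), 0) : Edge) : Ev HE) : Gr HE) = th ((a + (0, 1), 0) : HE) * th ((a + (1, 1), 2) : HE) := by
    rw [coe_eM]; simp [he0, he1, uv, add_assoc]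
  have er : ((eM id ((a + (1, 0), 1) : Edge) : Ev HE) : Gr HE) = th ((a + (1, 0), 1) : HE) * th ((a + (1, 1), 3) : HE) := by
    rw [coe_eM]; simp [he0, he1, uv, add_assoc]
  have eo : ((eM id ((a, 0) : Edge) : Ev HE) : Gr HE) = th ((a, 0) : HE) * th ((a + (1, 0), 2) : HE) := by
    rw [coe_eM]; simp [he0, he1, uv]
  have el : ((eM id ((a, 1) : Edge) : Ev HE) : Gr HE) = th ((a, 1) : HE) * th ((a + (0, 1), 3) : HE) := by
    rw [coe_eM]; simp [he0, he1, uv]
  rw [prod_plq a _ γ, prod_plq a _ (symmDiff γ (plq a)), hd, if_pos ht, if_pos hr, if_neg m1, if_neg m2]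
  generalize (∏ e ∈ γ \ plq a, eM id e : Ev HE) = Y at hY
  have hYd := supA_mono (offP_d a) hY
  by_cases ho : ((a, 0) : Edge) ∈ γ <;> by_cases hl : ((a, 1) : Edge) ∈ γ
  · rw [if_pos ho, if_pos hl, if_neg (fun h => m3.1 h ho), if_neg (fun h => m4.1 h hl)]
    simp only [one_mul, MulMemClass.coe_mul, et, er, eo, el, mul_assoc]
    rw [plq_tr a (fr_mul (ne_ad a) (fr_mul (ne_bd a) (fr_mul (ne_ad a) (fr_mul (ne_cd a) hYd)))), plq_caseB a hY]
  · rw [if_pos ho, if_neg hl, if_neg (fun h => m3.1 h ho), if_pos (m4.2 hl)]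
    simp only [one_mul, MulMemClass.coe_mul, et, er, eo, el, mul_assoc]
    rw [plq_tr a (fr_mul (ne_ad a) (fr_mul (ne_bd a) hYd)), plq_caseO a hY]
  · rw [if_neg ho, if_pos hl, if_pos (m3.2 ho), if_neg (fun h => m4.1 h hl)]
    simp only [one_mul, MulMemClass.coe_mul, et, er, eo, el, mul_assoc]
    rw [plq_tr a (fr_mul (ne_ad a) (fr_mul (ne_cd a) hYd)), plq_caseL a hY]
  · rw [if_neg ho, if_neg hl, if_pos (m3.2 ho), if_pos (m4.2 hl)]
    simp only [one_mul, MulMemClass.coe_mul, et, er, eo, el, mul_assoc]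
    rw [plq_tr a hYd, plq_case0 a hY]

/-- a site of degree one -/
theorem gauss_deg_one (γ : Finset Edge) {e : Edge} (he : e ∈ γ)
    (h : ∀ α, edgeOf (e.1 + uv e.2) α ∈ γ → edgeOf (e.1 + uv e.2) α = e) :
    gauss g0 ((∏ e ∈ γ, eM id e : Ev HE) : Gr HE) = 0 := by
  have hY : ((∏ e' ∈ γ.erase e, eM id e' : Ev HE) : Gr HE) ∈ supA {k : HE | k.1 ≠ e.1 + uv e.2} := by
    refine prod_mem_supA _ _ fun e' he' => eM_mem ?_ ?_
    · intro hh
      have h1 := edgeOf_he0 e'
      rw [hh] at h1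
      have := h (he0 e').2 (by rw [h1]; exact Finset.mem_of_mem_erase he')
      exact (Finset.ne_of_mem_erase he') (h1.symm.trans this)
    · intro hh
      have h1 := edgeOf_he1 e'
      rw [hh] at h1
      have := h (he1 e').2 (by rw [h1]; exact Finset.mem_of_mem_erase he')
      exact (Finset.ne_of_mem_erase he') (h1.symm.trans this)
  have h0 : th (he0 e) ∈ supA {k : HE | k.1 ≠ e.1 + uv e.2} := by
    refine th_mem_supA ?_
    obtain ⟨x, j⟩ := e
    fin_cases j <;> simp [he0, uv, Prod.ext_iff]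
  rw [← Finset.mul_prod_erase γ _ he, MulMemClass.coe_mul, coe_eM, mul_assoc, th_sw, map_neg,
    mv1 (j := he1 e) (c := 0) antisym_g0 ?_ (mul_mem h0 hY)]
  · simp
  · intro k hk
    have : (he1 e).1 ≠ k.1 := fun hh => hk hh.symm
    simp [g0, this]

theorem gauss_contour_aux (m : ℤ) (n : ℕ) : ∀ γ : Finset Edge, (∀ e ∈ γ, m ≤ e.1.1 ∧ m ≤ e.1.2) →
    ∑ e ∈ γ, (e.1.1 + e.1.2 - 2 * m + 1).toNat = n →
    gauss g0 ((∏ e ∈ γ, eM id e : Ev HE) : Gr HE) = if EvenSub γ then 1 else 0 := by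
  induction n using Nat.strong_induction_on with
  | _ n ih =>
  intro γ hm hn
  rcases γ.eq_empty_or_nonempty with rfl | hne
  · rw [if_pos (by intro x; simp)]
    simpa using gauss_one g0
  obtain ⟨e, he, hmax⟩ := γ.exists_max_image (fun e => e.1.1 + e.1.2) hne
  set d : Site := e.1 + uv e.2 with hd
  have hsum : d.1 + d.2 = e.1.1 + e.1.2 + 1 := by
    obtain ⟨x, j⟩ := e
    fin_cases j <;> simp [hd, uv] <;> ring
  have hE : ((d, 0) : Edge) ∉ γ := fun h => by have := hmax _ h; simp only at this; omega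
  have hN : ((d, 1) : Edge) ∉ γ := fun h => by have := hmax _ h; simp only at this; omega
  have hee : e = (d - (1, 0), 0) ∨ e = (d - (0, 1), 1) := by
    obtain ⟨x, j⟩ := e
    fin_cases j <;> simp [hd, uv]
  by_cases hb : ((d - (1, 0), 0) : Edge) ∈ γ ∧ ((d - (0, 1), 1) : Edge) ∈ γ
  · set a : Site := d - (1, 1) with ha
    have e1 : d - (1, 0) = a + (0, 1) := by simp [ha, Prod.ext_iff]
    have e2 : d - (0, 1) = a + (1, 0) := by simp [ha, Prod.ext_iff]
    rw [e1, e2] at hb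
    have ha1 : m ≤ a.1 := by simpa using (hm _ hb.1).1
    have ha2 : m ≤ a.2 := by simpa using (hm _ hb.2).2
    rw [gauss_flip a γ hb.1 hb.2, ← evenSub_symmDiff (γ := γ) (evenSub_plq a)]
    refine ih _ ?_ _ ?_ rfl
    · have hd' : symmDiff γ (plq a) \ plq a = γ \ plq a := by
        ext e; simp only [Finset.mem_sdiff, Finset.mem_symmDiff]; tauto
      have m1 : ((a + (0, 1), 0) : Edge) ∉ symmDiff γ (plq a) := by simp [Finset.mem_symmDiff, hb.1, plq]
      have m2 : ((a + (1, 0), 1) : Edge) ∉ symmDiff γ (plq a) := by simp [Finset.mem_symmDiff, hb.2, plq]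
      have h1 := prod_plq a (fun e : Edge => Multiplicative.ofAdd (e.1.1 + e.1.2 - 2 * m + 1).toNat) γ
      have h2 := prod_plq a (fun e : Edge => Multiplicative.ofAdd (e.1.1 + e.1.2 - 2 * m + 1).toNat)
        (symmDiff γ (plq a))
      rw [hd', if_neg m1, if_neg m2] at h2
      rw [if_pos hb.1, if_pos hb.2] at h1
      rw [← ofAdd_sum, ← ofAdd_sum] at h1 h2
      have h1' := congrArg Multiplicative.toAdd h1
      have h2' := congrArg Multiplicative.toAdd h2
      simp only [toAdd_mul, toAdd_ofAdd, apply_ite Multiplicative.toAdd, toAdd_one, Prod.fst_add, Prod.snd_add] at h1' h2'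
      rw [← hn, h1', h2']
      split_ifs <;> omega
    · intro e' he'
      rcases Finset.mem_symmDiff.1 he' with h | h
      · exact hm _ h.1
      · have := h.1
        simp only [plq, Finset.mem_insert, Finset.mem_singleton] at this
        rcases this with rfl | rfl | rfl | rfl <;> simp <;> omega
  · rw [if_neg, gauss_deg_one γ he]
    · intro α hα
      rw [← hd] at hα ⊢
      fin_cases α
      · exact absurd hα hE
      · exact absurd hα hN
      · rcases hee with h | h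
        · exact h.symm
        · exact absurd ⟨hα, h ▸ he⟩ hb
      · rcases hee with h | h
        · exact absurd ⟨h ▸ he, hα⟩ hb
        · exact h.symm
    · intro hev
      have := (evenSub_iff γ).1 hev d
      rcases hee with h | h <;> rw [h] at he <;> tauto

/-- **planar sign lemma** -/
theorem _root_.Crest.Agent.R165.gauss_contour {g₀ : HE → HE → ℝ} (h₀ : IsKer 0 g₀) (γ : Finset Edge) :
    gauss g₀ ((∏ e ∈ γ, eM id e : Ev HE) : Gr HE) = if EvenSub γ then 1 else 0 := by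
  rw [eq_g0 h₀]
  obtain ⟨m, hm⟩ : ∃ m : ℤ, ∀ e ∈ γ, m ≤ e.1.1 ∧ m ≤ e.1.2 := by
    obtain ⟨m, hm⟩ := (γ.image fun e => min e.1.1 e.1.2).bddBelow
    refine ⟨m, fun e he => ?_⟩
    have := hm (Finset.mem_coe.2 (Finset.mem_image_of_mem _ he))
    exact ⟨this.trans (min_le_left _ _), this.trans (min_le_right _ _)⟩
  exact gauss_contour_aux m _ γ hm rfl

end Crest.Agent.R165.BA
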